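import Mathlib

namespace Vale.Agent.P170

open Finset

variable {Ω : Type}

noncomputable def ind (X : Set Ω) : ℝ := by
  classical exact if X.Nonempty then 1 else 0

noncomputable def avg {A : Type} [Fintype A] (h : A → Set Ω) (φ : Set Ω → ℝ) (X : Set Ω) : ℝ :=
  (∑ a : A, φ (X ∩ h a)) / (Fintype.card A : ℝ)

noncomputable def iter {A : Type} [Fintype A] (h : A → Set Ω) (m : ℕ) : Set Ω → ℝ :=
  (avg h)^[m] ind

lemma ind_of_nonempty {X : Set Ω} (hX : X.Nonempty) : ind X = 1 := by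
  classical
  simp [ind, hX]

lemma ind_of_not_nonempty {X : Set Ω} (hX : ¬ X.Nonempty) : ind X = 0 := by
  classical
  simp [ind, hX]

lemma ind_nonneg (X : Set Ω) : 0 ≤ ind X := by
  by_cases hX : X.Nonempty
  · rw [ind_of_nonempty hX]; norm_num
  · rw [ind_of_not_nonempty hX]

lemma ind_le_one (X : Set Ω) : ind X ≤ 1 := by
  by_cases hX : X.Nonempty
  · rw [ind_of_nonempty hX]
  · rw [ind_of_not_nonempty hX]; norm_num

lemma ind_mono {X Y : Set Ω} (hXY : X ⊆ Y) : ind X ≤ ind Y := by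
  by_cases hX : X.Nonempty
  · rw [ind_of_nonempty hX, ind_of_nonempty (hX.mono hXY)]
  · rw [ind_of_not_nonempty hX]; exact ind_nonneg Y

section
variable {A : Type} [Fintype A] (h : A → Set Ω)

lemma iter_zero : iter h 0 = ind := rfl

lemma iter_succ (m : ℕ) : iter h (m + 1) = avg h (iter h m) := by
  unfold iter
  rw [Function.iterate_succ_apply']

lemma avg_le_avg {φ ψ : Set Ω → ℝ} (hφψ : ∀ X, φ X ≤ ψ X) (X : Set Ω) :
    avg h φ X ≤ avg h ψ X := by
  unfold avg
  apply div_le_div_of_nonneg_right _ (Nat.cast_nonneg _)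
  exact Finset.sum_le_sum (fun a _ => hφψ _)

lemma avg_lin [Nonempty A] (φ ψ : Set Ω → ℝ) (a b c : ℝ) (X : Set Ω) :
    avg h (fun Y => a * φ Y + b * ψ Y + c) X = a * avg h φ X + b * avg h ψ X + c := by
  unfold avg
  have hA : (Fintype.card A : ℝ) ≠ 0 := by
    exact_mod_cast Fintype.card_ne_zero
  rw [Finset.sum_add_distrib, Finset.sum_add_distrib, ← Finset.mul_sum, ← Finset.mul_sum]
  simp only [Finset.sum_const, Finset.card_univ, nsmul_eq_mul]
  field_simp

lemma avg_comm {B : Type} [Fintype B] (g : B → Set Ω) (φ : Set Ω → ℝ) :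
    avg h (avg g φ) = avg g (avg h φ) := by
  funext X
  unfold avg
  rw [← Finset.sum_div, ← Finset.sum_div, div_div, div_div, mul_comm (Fintype.card B : ℝ)]
  congr 1
  rw [Finset.sum_comm]
  refine Finset.sum_congr rfl (fun b _ => Finset.sum_congr rfl (fun a _ => ?_))
  rw [Set.inter_right_comm]

/-- functions that are between `0` and `ind` and monotone -/
def Good (φ : Set Ω → ℝ) : Prop :=
  (∀ X, 0 ≤ φ X) ∧ (∀ X, φ X ≤ ind X) ∧ (∀ X Y, X ⊆ Y → φ X ≤ φ Y)

lemma good_ind : Good (ind : Set Ω → ℝ) :=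
  ⟨ind_nonneg, fun _ => le_rfl, fun _ _ h => ind_mono h⟩

lemma good_avg {φ : Set Ω → ℝ} (hφ : Good φ) : Good (avg h φ) := by
  obtain ⟨h0, h1, h2⟩ := hφ
  refine ⟨fun X => ?_, fun X => ?_, fun X Y hXY => ?_⟩
  · unfold avg
    exact div_nonneg (Finset.sum_nonneg (fun a _ => h0 _)) (Nat.cast_nonneg _)
  · unfold avg
    apply div_le_of_le_mul₀ (Nat.cast_nonneg _) (ind_nonneg _)
    calc ∑ a : A, φ (X ∩ h a) ≤ ∑ _a : A, ind X :=
          Finset.sum_le_sum (fun a _ => (h1 _).trans (ind_mono Set.inter_subset_left))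
      _ = ind X * (Fintype.card A : ℝ) := by
          simp [Finset.sum_const, mul_comm]
  · unfold avg
    apply div_le_div_of_nonneg_right _ (Nat.cast_nonneg _)
    exact Finset.sum_le_sum (fun a _ => h2 _ _ (Set.inter_subset_inter_left _ hXY))

lemma good_iter (m : ℕ) : Good (iter h m) := by
  induction m with
  | zero => exact good_ind
  | succ m ih => rw [iter_succ]; exact good_avg h ih

lemma iter_nonneg (m : ℕ) (X : Set Ω) : 0 ≤ iter h m X := (good_iter h m).1 X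

lemma iter_le_ind (m : ℕ) (X : Set Ω) : iter h m X ≤ ind X := (good_iter h m).2.1 X

lemma iter_le_one (m : ℕ) (X : Set Ω) : iter h m X ≤ 1 :=
  (iter_le_ind h m X).trans (ind_le_one X)

lemma iter_mono_set (m : ℕ) {X Y : Set Ω} (hXY : X ⊆ Y) : iter h m X ≤ iter h m Y :=
  (good_iter h m).2.2 X Y hXY

lemma avg_le_self {φ : Set Ω → ℝ} (hφ : Good φ) (X : Set Ω) : avg h φ X ≤ φ X := by
  obtain ⟨h0, h1, h2⟩ := hφ
  unfold avg
  apply div_le_of_le_mul₀ (Nat.cast_nonneg _) (h0 _)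
  calc ∑ a : A, φ (X ∩ h a) ≤ ∑ _a : A, φ X :=
        Finset.sum_le_sum (fun a _ => h2 _ _ Set.inter_subset_left)
    _ = φ X * (Fintype.card A : ℝ) := by
        simp [Finset.sum_const, mul_comm]

lemma iter_succ_le (m : ℕ) (X : Set Ω) : iter h (m + 1) X ≤ iter h m X := by
  rw [iter_succ]
  exact avg_le_self h (good_iter h m) X

lemma iter_anti {m m' : ℕ} (hm : m ≤ m') (X : Set Ω) : iter h m' X ≤ iter h m X := by
  induction hm with
  | refl => exact le_rfl
  | step _ ih => exact (iter_succ_le h _ X).trans ih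

/-- the counting recursion -/
noncomputable def cntEquiv (m : ℕ) (X : Set Ω) :
    {F : Fin (m + 1) → A // ∃ σ ∈ X, ∀ i, σ ∈ h (F i)} ≃
      (Σ a : A, {F : Fin m → A // ∃ σ ∈ X ∩ h a, ∀ i, σ ∈ h (F i)}) where
  toFun F := ⟨F.1 0, ⟨fun i => F.1 i.succ, by
    obtain ⟨σ, hσ, hF⟩ := F.2
    exact ⟨σ, ⟨hσ, hF 0⟩, fun i => hF i.succ⟩⟩⟩
  invFun G := ⟨Fin.cons G.1 G.2.1, by
    obtain ⟨σ, hσ, hF⟩ := G.2.2
    refine ⟨σ, hσ.1, fun i => ?_⟩
    refine Fin.cases ?_ (fun j => ?_) i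
    · simpa using hσ.2
    · simpa using hF j⟩
  left_inv F := by
    apply Subtype.ext
    funext i
    refine Fin.cases ?_ (fun j => ?_) i <;> simp
  right_inv G := by
    obtain ⟨a, F, hF⟩ := G
    rfl

lemma card_eq (m : ℕ) : ∀ X : Set Ω,
    (Nat.card {F : Fin m → A // ∃ σ ∈ X, ∀ i, σ ∈ h (F i)} : ℝ)
      = (Fintype.card A : ℝ) ^ m * iter h m X := by
  induction m with
  | zero =>
    intro X
    rw [iter_zero, pow_zero, one_mul]
    by_cases hX : X.Nonempty
    · rw [ind_of_nonempty hX]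
      have : Nat.card {F : Fin 0 → A // ∃ σ ∈ X, ∀ i, σ ∈ h (F i)} = 1 := by
        rw [Nat.card_eq_one_iff_unique]
        refine ⟨⟨fun a b => Subtype.ext (Subsingleton.elim _ _)⟩, ?_⟩
        obtain ⟨σ, hσ⟩ := hX
        exact ⟨⟨Fin.elim0, σ, hσ, fun i => i.elim0⟩⟩
      rw [this]; norm_num
    · rw [ind_of_not_nonempty hX]
      have : IsEmpty {F : Fin 0 → A // ∃ σ ∈ X, ∀ i, σ ∈ h (F i)} := by
        refine ⟨fun F => ?_⟩
        obtain ⟨σ, hσ, _⟩ := F.2
        exact hX ⟨σ, hσ⟩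
      rw [Nat.card_of_isEmpty]; norm_num
  | succ m ih =>
    intro X
    rw [Nat.card_congr (cntEquiv h m X), Nat.card_sigma, iter_succ]
    push_cast
    rw [Finset.sum_congr rfl (fun a _ => ih (X ∩ h a)), ← Finset.mul_sum]
    unfold avg
    rcases isEmpty_or_nonempty A with hA | hA
    · simp
    · have hA' : (Fintype.card A : ℝ) ≠ 0 := by exact_mod_cast Fintype.card_ne_zero
      field_simp
      ring

end

end Vale.Agent.P170
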