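import Vale.Agent.P170.Restrict

namespace Vale.Agent.P170

open Finset

variable {Ω : Type}

lemma avg_aff_le {A : Type} [Fintype A] [Nonempty A] (h : A → Set Ω) {φ ψ χ : Set Ω → ℝ}
    {a b c : ℝ} (H : ∀ X, a * φ X + b * ψ X + c ≤ χ X) (X : Set Ω) :
    a * avg h φ X + b * avg h ψ X + c ≤ avg h χ X := by
  rw [← avg_lin]
  exact avg_le_avg h H X

lemma iterate_aff_le {A : Type} [Fintype A] [Nonempty A] (h : A → Set Ω) (s : ℕ) :
    ∀ {φ ψ χ : Set Ω → ℝ} {a b c : ℝ}, (∀ X, a * φ X + b * ψ X + c ≤ χ X) → ∀ X : Set Ω,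
    a * (avg h)^[s] φ X + b * (avg h)^[s] ψ X + c ≤ (avg h)^[s] χ X := by
  induction s with
  | zero => intro φ ψ χ a b c H X; exact H X
  | succ s ih =>
    intro φ ψ χ a b c H X
    rw [Function.iterate_succ_apply, Function.iterate_succ_apply, Function.iterate_succ_apply]
    exact ih (avg_aff_le h H) X

lemma avg_iterate_comm {A B : Type} [Fintype A] [Fintype B] (h : A → Set Ω) (g : B → Set Ω)
    (t : ℕ) (φ : Set Ω → ℝ) : avg h ((avg g)^[t] φ) = (avg g)^[t] (avg h φ) := by
  have hc : Function.Commute (avg h : (Set Ω → ℝ) → (Set Ω → ℝ)) (avg g) :=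
    fun φ => avg_comm h g φ
  exact (hc.iterate_right t) φ

lemma iter_add {B : Type} [Fintype B] (g : B → Set Ω) (t u : ℕ) :
    (avg g)^[t] (iter g u) = iter g (t + u) := by
  unfold iter
  rw [Function.iterate_add_apply]

theorem interpolation {A B : Type} [Fintype A] [Fintype B] [Nonempty A] [Nonempty B]
    (hc : A → Set Ω) (hb : B → Set Ω) (θ ξ z : ℝ) (hθ0 : 0 ≤ θ) (hθ1 : θ ≤ 1) (hξ : 0 ≤ ξ)
    (hz : 1 ≤ z)
    (base : ∀ X, (1 - θ) * iter hb 1 X + θ * iter hb 2 X + (-ξ) ≤ avg hc ind X) :
    ∀ (s t j : ℕ) (X : Set Ω),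
      iter hb (t + s + j) X - s * ξ - (1 - θ + θ * z) ^ s / z ^ (j + 1)
        ≤ (avg hc)^[s] (iter hb t) X := by
  have hz0 : 0 < z := by linarith
  have hρ : 1 ≤ 1 - θ + θ * z := by nlinarith
  have hρ0 : 0 < 1 - θ + θ * z := by linarith
  intro s
  induction s with
  | zero =>
    intro t j X
    have h1 : iter hb (t + 0 + j) X ≤ iter hb t X := iter_anti hb (by omega) X
    have h2 : 0 ≤ (1 - θ + θ * z) ^ 0 / z ^ (j + 1) := by positivity
    simp only [Function.iterate_zero, id]
    push_cast
    linarith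
  | succ s ih =>
    intro t j X
    rw [Function.iterate_succ_apply]
    have h1 : ∀ Y, (1 - θ) * iter hb (t + 1) Y + θ * iter hb (t + 2) Y + (-ξ)
        ≤ avg hc (iter hb t) Y := by
      intro Y
      have e : avg hc (iter hb t) = (avg hb)^[t] (avg hc ind) := by
        unfold iter
        exact avg_iterate_comm hc hb t ind
      rw [e, ← iter_add hb t 1, ← iter_add hb t 2]
      exact iterate_aff_le hb t base Y
    have h2 := iterate_aff_le hc s h1 X
    have h3 := ih (t + 1) j X
    have h4 : iter hb (t + (s + 1) + j) X - s * ξ - (1 - θ + θ * z) ^ s / z ^ j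
        ≤ (avg hc)^[s] (iter hb (t + 2)) X := by
      cases j with
      | zero =>
        have h5 : iter hb (t + (s + 1) + 0) X ≤ 1 := iter_le_one _ _ _
        have h6 : (1 : ℝ) ≤ (1 - θ + θ * z) ^ s / z ^ 0 := by
          rw [pow_zero, div_one]
          exact one_le_pow₀ hρ
        have h7 : 0 ≤ (avg hc)^[s] (iter hb (t + 2)) X := by
          have : ∀ (u : ℕ) (φ : Set Ω → ℝ), Good φ → Good ((avg hc)^[u] φ) := by
            intro u
            induction u with
            | zero => intro φ hφ; exact hφ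
            | succ u ihu =>
              intro φ hφ
              rw [Function.iterate_succ_apply]
              exact ihu _ (good_avg hc hφ)
          exact (this s _ (good_iter hb (t + 2))).1 X
        have h8 : 0 ≤ (s : ℝ) * ξ := by positivity
        linarith
      | succ j =>
        have := ih (t + 2) j X
        have e : t + 2 + s + j = t + (s + 1) + (j + 1) := by ring
        rw [e] at this
        exact this
    have e1 : t + 1 + s + j = t + (s + 1) + j := by ring
    rw [e1] at h3
    have e2 : (1 - θ) * ((1 - θ + θ * z) ^ s / z ^ (j + 1)) + θ * ((1 - θ + θ * z) ^ s / z ^ j)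
        = (1 - θ + θ * z) ^ (s + 1) / z ^ (j + 1) := by
      field_simp
      ring
    have h5 := mul_le_mul_of_nonneg_left h3 (by linarith : 0 ≤ 1 - θ)
    have h6 := mul_le_mul_of_nonneg_left h4 hθ0
    rw [← e2]
    push_cast
    nlinarith [h2, h5, h6]

end Vale.Agent.P170
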