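import Mathlib

namespace Vale.Agent.P170

open Finset

lemma desc_le_one (A N : ℕ) (hAN : A ≤ N) (j : ℕ) :
    A.descFactorial j * N ^ j ≤ N.descFactorial j * A ^ j := by
  induction j with
  | zero => simp
  | succ j ih =>
    rw [Nat.descFactorial_succ, Nat.descFactorial_succ, pow_succ, pow_succ]
    have h1 : (A - j) * N ≤ (N - j) * A := by
      by_cases hj : j ≤ A
      · obtain ⟨d, rfl⟩ := Nat.exists_eq_add_of_le hj
        obtain ⟨e, rfl⟩ := Nat.exists_eq_add_of_le hAN
        have e1 : j + d - j = d := by omega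
        have e2 : j + d + e - j = d + e := by omega
        rw [e1, e2]
        nlinarith
      · have : A - j = 0 := by omega
        rw [this]; simp
    calc (A - j) * A.descFactorial j * (N ^ j * N)
        = ((A - j) * N) * (A.descFactorial j * N ^ j) := by ring
      _ ≤ ((N - j) * A) * (N.descFactorial j * A ^ j) := Nat.mul_le_mul h1 ih
      _ = (N - j) * N.descFactorial j * (A ^ j * A) := by ring

lemma desc_ge_one (a n k : ℕ) (j : ℕ) (hj : j ≤ k) :
    n.descFactorial j * (a - k) ^ j ≤ a.descFactorial j * n ^ j := by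
  induction j with
  | zero => simp
  | succ j ih =>
    rw [Nat.descFactorial_succ, Nat.descFactorial_succ, pow_succ, pow_succ]
    have h1 : (n - j) * (a - k) ≤ (a - j) * n := by
      calc (n - j) * (a - k) ≤ n * (a - j) := Nat.mul_le_mul (Nat.sub_le _ _) (by omega)
        _ = (a - j) * n := by ring
    calc (n - j) * n.descFactorial j * ((a - k) ^ j * (a - k))
        = ((n - j) * (a - k)) * (n.descFactorial j * (a - k) ^ j) := by ring
      _ ≤ ((a - j) * n) * (a.descFactorial j * n ^ j) := Nat.mul_le_mul h1 (ih (by omega))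
      _ = (a - j) * a.descFactorial j * (n ^ j * n) := by ring

lemma choose_le_pow_ratio (A N k : ℕ) (hAN : A ≤ N) :
    A.choose k * N ^ k ≤ N.choose k * A ^ k := by
  have h := desc_le_one A N hAN k
  rw [Nat.descFactorial_eq_factorial_mul_choose, Nat.descFactorial_eq_factorial_mul_choose,
    mul_assoc, mul_assoc] at h
  exact Nat.le_of_mul_le_mul_left h (Nat.factorial_pos k)

lemma choose_ge_pow_ratio (a n k : ℕ) :
    n.choose k * (a - k) ^ k ≤ a.choose k * n ^ k := by
  have h := desc_ge_one a n k k le_rfl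
  rw [Nat.descFactorial_eq_factorial_mul_choose, Nat.descFactorial_eq_factorial_mul_choose,
    mul_assoc, mul_assoc] at h
  exact Nat.le_of_mul_le_mul_left h (Nat.factorial_pos k)

lemma numeric (k n T : ℕ) (hk1 : 1 ≤ k) (hkn : k ≤ n) (hT : 1 ≤ T) (a : Fin T → ℕ)
    (ha : ∀ t, a t ≤ n) (θ : ℝ) (hθ0 : 0 < θ) (hθ1 : θ ≤ 1) :
    (((∑ t, a t).choose k : ℕ) : ℝ) / ((T * n).choose k : ℝ)
      ≤ (1 + θ / 2) * (∑ t, (1 / (T : ℝ)) * (((a t).choose k : ℝ) / (n.choose k : ℝ)))
        + (4 * (k : ℝ) ^ 2 / (θ * n)) ^ k := by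
  set f := ∑ t, a t with hf
  have hn1 : 1 ≤ n := hk1.trans hkn
  have hn0 : (0 : ℝ) < n := by exact_mod_cast hn1
  have hT0 : (0 : ℝ) < T := by exact_mod_cast hT
  have hk0 : (0 : ℝ) < k := by exact_mod_cast hk1
  have hfN : f ≤ T * n := by
    calc f ≤ ∑ _t : Fin T, n := Finset.sum_le_sum (fun t _ => ha t)
      _ = T * n := by simp
  have hkN : k ≤ T * n := hkn.trans (Nat.le_mul_of_pos_left n hT)
  have hCN : (0 : ℝ) < ((T * n).choose k : ℝ) := by exact_mod_cast Nat.choose_pos hkN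
  have hCn : (0 : ℝ) < (n.choose k : ℝ) := by exact_mod_cast Nat.choose_pos hkn
  -- left side
  have hL : ((f.choose k : ℕ) : ℝ) / ((T * n).choose k : ℝ) ≤ ((f : ℝ) / ((T : ℝ) * n)) ^ k := by
    rw [div_pow, div_le_div_iff₀ hCN (by positivity)]
    have := choose_le_pow_ratio f (T * n) k hfN
    have h2 : ((f.choose k * (T * n) ^ k : ℕ) : ℝ) ≤ (((T * n).choose k * f ^ k : ℕ) : ℝ) := by
      exact_mod_cast this
    push_cast at h2
    linarith
  -- right side
  set x : Fin T → ℝ := fun t => (((a t - k : ℕ) : ℝ)) / n with hx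
  have hx0 : ∀ t, 0 ≤ x t := fun t => by rw [hx]; positivity
  have hR1 : ∀ t, x t ^ k ≤ ((a t).choose k : ℝ) / (n.choose k : ℝ) := by
    intro t
    simp only [hx]
    rw [div_pow, div_le_div_iff₀ (by positivity) hCn]
    have := choose_ge_pow_ratio (a t) n k
    have h2 : ((n.choose k * (a t - k) ^ k : ℕ) : ℝ) ≤ (((a t).choose k * n ^ k : ℕ) : ℝ) := by
      exact_mod_cast this
    push_cast at h2
    linarith
  have hR2 : (∑ t, (1 / (T : ℝ)) * x t) ^ k ≤ ∑ t, (1 / (T : ℝ)) * x t ^ k := by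
    apply Real.pow_arith_mean_le_arith_mean_pow
    · intro i _; positivity
    · simp; field_simp
    · intro i _; exact hx0 i
  have hR3 : ∑ t, (1 / (T : ℝ)) * x t ^ k
      ≤ ∑ t, (1 / (T : ℝ)) * (((a t).choose k : ℝ) / (n.choose k : ℝ)) := by
    apply Finset.sum_le_sum
    intro t _
    exact mul_le_mul_of_nonneg_left (hR1 t) (by positivity)
  have hR4 : ((f : ℝ) - T * k) / ((T : ℝ) * n) ≤ ∑ t, (1 / (T : ℝ)) * x t := by
    have h1 : ∀ t, ((a t : ℝ) - k) / ((T : ℝ) * n) ≤ (1 / (T : ℝ)) * x t := by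
      intro t
      simp only [hx]
      have h2 : (a t : ℝ) - k ≤ ((a t - k : ℕ) : ℝ) := by
        have h3 : a t ≤ (a t - k) + k := by omega
        have h4 : (a t : ℝ) ≤ ((a t - k : ℕ) : ℝ) + k := by exact_mod_cast h3
        linarith
      rw [div_mul_div_comm, one_mul]
      exact div_le_div_of_nonneg_right h2 (by positivity)
    calc ((f : ℝ) - T * k) / ((T : ℝ) * n) = ∑ t, ((a t : ℝ) - k) / ((T : ℝ) * n) := by
          rw [← Finset.sum_div, Finset.sum_sub_distrib, hf]
          simp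
      _ ≤ ∑ t, (1 / (T : ℝ)) * x t := Finset.sum_le_sum (fun t _ => h1 t)
  have hS0 : 0 ≤ ∑ t, (1 / (T : ℝ)) * (((a t).choose k : ℝ) / (n.choose k : ℝ)) := by
    apply Finset.sum_nonneg
    intro t _
    positivity
  have hξ0 : 0 ≤ (4 * (k : ℝ) ^ 2 / (θ * n)) ^ k := by positivity
  by_cases hcase : 4 * (T : ℝ) * (k : ℝ) ^ 2 / θ ≤ f
  · -- large f
    have hf0 : (0 : ℝ) < f := lt_of_lt_of_le (by positivity) hcase
    have h1 : (T : ℝ) * (k : ℝ) ^ 2 / f ≤ θ / 4 := by
      rw [div_le_iff₀ hf0]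
      rw [div_le_iff₀ hθ0] at hcase
      nlinarith
    have h2 : (T : ℝ) * k / f ≤ 1 := by
      have : (T : ℝ) * k / f ≤ (T : ℝ) * (k : ℝ) ^ 2 / f := by
        apply div_le_div_of_nonneg_right _ hf0.le
        have hk1' : (1 : ℝ) ≤ k := by exact_mod_cast hk1
        have : (T : ℝ) * k * 1 ≤ (T : ℝ) * k * k :=
          mul_le_mul_of_nonneg_left hk1' (by positivity)
        nlinarith
      linarith
    have h3 : 1 - θ / 4 ≤ (1 - (T : ℝ) * k / f) ^ k := by
      have hb := one_add_mul_le_pow (a := -((T : ℝ) * k / f)) (by linarith) k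
      have e : 1 + (k : ℝ) * -((T : ℝ) * k / f) = 1 - (T : ℝ) * (k : ℝ) ^ 2 / f := by
        field_simp
        ring
      rw [e] at hb
      have e2 : 1 + -((T : ℝ) * k / f) = 1 - (T : ℝ) * k / f := by ring
      rw [e2] at hb
      linarith
    have h4 : ((f : ℝ) - T * k) / ((T : ℝ) * n) = (f : ℝ) / ((T : ℝ) * n) * (1 - (T : ℝ) * k / f) := by
      field_simp
    have h5 : 0 ≤ ((f : ℝ) - T * k) / ((T : ℝ) * n) := by
      rw [h4]
      apply mul_nonneg (by positivity) (by linarith)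
    have h6 : (((f : ℝ) - T * k) / ((T : ℝ) * n)) ^ k ≤ (∑ t, (1 / (T : ℝ)) * x t) ^ k :=
      pow_le_pow_left₀ h5 hR4 k
    have h7 : ((f : ℝ) / ((T : ℝ) * n)) ^ k * (1 - θ / 4)
        ≤ (((f : ℝ) - T * k) / ((T : ℝ) * n)) ^ k := by
      rw [h4, mul_pow]
      exact mul_le_mul_of_nonneg_left h3 (by positivity)
    set g := ((f : ℝ) / ((T : ℝ) * n)) ^ k with hg
    have hg0 : 0 ≤ g := by rw [hg]; positivity
    set S := ∑ t, (1 / (T : ℝ)) * (((a t).choose k : ℝ) / (n.choose k : ℝ)) with hS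
    have h8 : g * (1 - θ / 4) ≤ S := by linarith
    have h9 : g ≤ (1 + θ / 2) * S := by
      have : g ≤ (1 + θ / 2) * (g * (1 - θ / 4)) := by
        have e3 : (1 + θ / 2) * (g * (1 - θ / 4)) - g = g * (θ / 4 * (1 - θ / 2)) := by ring
        have e4 : 0 ≤ g * (θ / 4 * (1 - θ / 2)) :=
          mul_nonneg hg0 (mul_nonneg (by linarith) (by linarith))
        linarith
      have h10 : (1 + θ / 2) * (g * (1 - θ / 4)) ≤ (1 + θ / 2) * S :=
        mul_le_mul_of_nonneg_left h8 (by linarith)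
      linarith
    linarith
  · -- small f
    push Not at hcase
    have h1 : ((f : ℝ) / ((T : ℝ) * n)) ^ k ≤ (4 * (k : ℝ) ^ 2 / (θ * n)) ^ k := by
      apply pow_le_pow_left₀ (by positivity)
      rw [div_le_div_iff₀ (by positivity) (by positivity)]
      rw [lt_div_iff₀ hθ0] at hcase
      nlinarith
    have h2 : 0 ≤ (1 + θ / 2) * ∑ t, (1 / (T : ℝ)) * (((a t).choose k : ℝ) / (n.choose k : ℝ)) :=
      mul_nonneg (by linarith) hS0
    linarith

end Vale.Agent.P170
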