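import Vale.Agent.P170.Kill
import Vale.Agent.P170.Numeric
import Vale.Agent.P170.Interp

namespace Vale.Agent.P170

open Finset

variable {W : Type} [DecidableEq W] [Fintype W] {T k : ℕ}

/-- restriction of an assignment to block `t` -/
def rho (t : Fin T) (σ : Fin T × W → Bool) : W → Bool := fun w => σ (t, w)

/-- the block family: a block index and a clause inside this block -/
def hb (p : Fin T × Clause W k) : Set (Fin T × W → Bool) := rho p.1 ⁻¹' hset p.2

lemma ind_inter_preimage {Ω Ω' : Type} (ρ : Ω' → Ω) (X : Set Ω') (Y : Set Ω) :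
    ind (X ∩ ρ ⁻¹' Y) = ind (ρ '' X ∩ Y) := by
  rw [← Set.image_inter_preimage]
  by_cases h : (X ∩ ρ ⁻¹' Y).Nonempty
  · rw [ind_of_nonempty h, ind_of_nonempty (h.image ρ)]
  · rw [ind_of_not_nonempty h, ind_of_not_nonempty]
    intro h'
    exact h (Set.image_nonempty.1 h')

lemma frozen_image (X : Set (Fin T × W → Bool)) (t : Fin T) :
    frozen (rho t '' X) = univ.filter (fun w => (t, w) ∈ frozen X) := by
  ext w
  rw [mem_frozen, Finset.mem_filter, mem_frozen]
  constructor
  · intro h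
    refine ⟨Finset.mem_univ _, fun σ hσ τ hτ => ?_⟩
    exact h _ ⟨σ, hσ, rfl⟩ _ ⟨τ, hτ, rfl⟩
  · rintro ⟨_, h⟩ _ ⟨σ, hσ, rfl⟩ _ ⟨τ, hτ, rfl⟩
    exact h σ hσ τ hτ

lemma card_prod_fiber (S : Finset (Fin T × W)) :
    S.card = ∑ t : Fin T, (univ.filter (fun w => (t, w) ∈ S)).card := by
  rw [Finset.card_eq_sum_card_fiberwise (f := Prod.fst) (t := univ) (fun _ _ => Finset.mem_coe.2 (Finset.mem_univ _))]
  refine Finset.sum_congr rfl (fun t _ => ?_)
  symm
  apply Finset.card_bij (fun w _ => (t, w))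
  · intro w hw
    rw [Finset.mem_filter] at hw ⊢
    exact ⟨hw.2, rfl⟩
  · intro w _ w' _ h
    exact (Prod.mk.inj h).2
  · rintro ⟨t', w⟩ hp
    rw [Finset.mem_filter] at hp
    obtain ⟨h1, h2⟩ := hp
    simp only at h2
    subst h2
    exact ⟨w, by simp [h1], rfl⟩

lemma sum_frozen (X : Set (Fin T × W → Bool)) :
    ∑ t : Fin T, (frozen (rho t '' X)).card = (frozen X).card := by
  rw [card_prod_fiber (frozen X)]
  refine Finset.sum_congr rfl (fun t _ => ?_)
  rw [frozen_image]

lemma avg_sq_le {Ω A : Type} [Fintype A] (h : A → Set Ω) (X : Set Ω) :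
    iter h 2 X ≤ iter h 1 X * iter h 1 X := by
  have hg := good_iter h 1
  rw [iter_succ h 1]
  have e1 : iter h 1 X = (∑ a : A, ind (X ∩ h a)) / (Fintype.card A : ℝ) := by
    rw [iter_succ, iter_zero]; rfl
  unfold avg
  rw [show iter h 1 X * iter h 1 X
      = (∑ a : A, ind (X ∩ h a)) / (Fintype.card A : ℝ) * iter h 1 X by rw [← e1]]
  rw [div_mul_eq_mul_div]
  apply div_le_div_of_nonneg_right _ (Nat.cast_nonneg _)
  rw [Finset.sum_mul]
  apply Finset.sum_le_sum
  intro a _
  by_cases hne : (X ∩ h a).Nonempty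
  · rw [ind_of_nonempty hne, one_mul]
    exact hg.2.2 _ _ Set.inter_subset_left
  · have := hg.2.1 (X ∩ h a)
    rw [ind_of_not_nonempty hne] at this ⊢
    linarith

lemma avg_hset_ind {V : Type} [DecidableEq V] [Fintype V] (hk : k ≤ Fintype.card V)
    (X : Set (V → Bool)) (hX : X.Nonempty) :
    avg (hset : Clause V k → Set (V → Bool)) ind X
      = 1 - ((frozen X).card.choose k : ℝ) / ((Fintype.card V).choose k : ℝ) / 2 ^ k := by
  unfold avg
  rw [sum_ind_clause X hX, card_clause]
  have h1 : (0 : ℝ) < ((Fintype.card V).choose k : ℝ) := by exact_mod_cast Nat.choose_pos hk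
  push_cast
  field_simp

lemma iter_hb_one (hk : k ≤ Fintype.card W) (hT : 1 ≤ T) (X : Set (Fin T × W → Bool))
    (hX : X.Nonempty) :
    iter (hb : Fin T × Clause W k → Set (Fin T × W → Bool)) 1 X
      = 1 - (∑ t : Fin T, (1 / (T : ℝ)) * (((frozen (rho t '' X)).card.choose k : ℝ)
          / ((Fintype.card W).choose k : ℝ))) / 2 ^ k := by
  rw [iter_succ, iter_zero]
  unfold avg
  rw [Fintype.sum_prod_type]
  have h1 : ∀ t : Fin T, ∑ C : Clause W k, ind (X ∩ hb (t, C))
      = (Fintype.card (Clause W k) : ℝ) - ((frozen (rho t '' X)).card.choose k : ℝ) := by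
    intro t
    rw [← sum_ind_clause (rho t '' X) (hX.image _)]
    refine Finset.sum_congr rfl (fun C _ => ?_)
    exact ind_inter_preimage (rho t) X (hset C)
  rw [Finset.sum_congr rfl (fun t _ => h1 t), Fintype.card_prod, card_clause, Fintype.card_fin]
  have h2 : (0 : ℝ) < ((Fintype.card W).choose k : ℝ) := by exact_mod_cast Nat.choose_pos hk
  have hT0 : (0 : ℝ) < T := by exact_mod_cast hT
  rw [Finset.sum_sub_distrib, ← Finset.mul_sum, ← Finset.sum_div]
  simp only [Finset.sum_const, Finset.card_univ, Fintype.card_fin, nsmul_eq_mul]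
  push_cast
  field_simp

theorem base_ineq (hk1 : 1 ≤ k) (hk : k ≤ Fintype.card W) (hT : 1 ≤ T) (θ : ℝ) (hθ0 : 0 < θ)
    (hθ1 : θ ≤ 1) (X : Set (Fin T × W → Bool)) :
    (1 - θ) * iter (hb : Fin T × Clause W k → Set (Fin T × W → Bool)) 1 X
      + θ * iter (hb : Fin T × Clause W k → Set (Fin T × W → Bool)) 2 X
      + (-((4 * (k : ℝ) ^ 2 / (θ * (Fintype.card W : ℝ))) ^ k))
      ≤ avg (hset : Clause (Fin T × W) k → Set (Fin T × W → Bool)) ind X := by
  set n := Fintype.card W with hn
  have hξ0 : 0 ≤ (4 * (k : ℝ) ^ 2 / (θ * (n : ℝ))) ^ k := by positivity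
  by_cases hX : X.Nonempty
  · have hcardV : Fintype.card (Fin T × W) = T * n := by
      rw [Fintype.card_prod, Fintype.card_fin]
    have hkV : k ≤ Fintype.card (Fin T × W) := by
      rw [hcardV]; exact hk.trans (Nat.le_mul_of_pos_left n hT)
    rw [avg_hset_ind hkV X hX, hcardV]
    have hx := iter_hb_one (k := k) hk hT X hX
    have hsq := avg_sq_le (hb : Fin T × Clause W k → Set (Fin T × W → Bool)) X
    set a : Fin T → ℕ := fun t => (frozen (rho t '' X)).card with ha
    have han : ∀ t, a t ≤ n := fun t => Finset.card_le_univ _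
    have hnum := numeric k n T hk1 hk hT a han θ hθ0 hθ1
    rw [show ∑ t, a t = (frozen X).card from sum_frozen X] at hnum
    set S := ∑ t : Fin T, (1 / (T : ℝ)) * (((a t).choose k : ℝ) / (n.choose k : ℝ)) with hS
    have hCn : (0 : ℝ) < (n.choose k : ℝ) := by exact_mod_cast Nat.choose_pos hk
    have hT0 : (0 : ℝ) < T := by exact_mod_cast hT
    have hS0 : 0 ≤ S := by
      apply Finset.sum_nonneg
      intro t _
      positivity
    have hS1 : S ≤ 1 := by
      calc S ≤ ∑ _t : Fin T, (1 / (T : ℝ)) * 1 := by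
            apply Finset.sum_le_sum
            intro t _
            apply mul_le_mul_of_nonneg_left _ (by positivity)
            rw [div_le_one hCn]
            exact_mod_cast Nat.choose_le_choose k (han t)
        _ = 1 := by simp; field_simp
    have h2k : (2 : ℝ) ≤ 2 ^ k := by
      calc (2 : ℝ) = 2 ^ 1 := by norm_num
        _ ≤ 2 ^ k := pow_le_pow_right₀ (by norm_num) hk1
    set κb := S / 2 ^ k with hκb
    have hκb0 : 0 ≤ κb := by rw [hκb]; positivity
    have hκb1 : κb ≤ 1 / 2 := by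
      rw [hκb, div_le_iff₀ (by positivity)]
      linarith
    set x := iter (hb : Fin T × Clause W k → Set (Fin T × W → Bool)) 1 X with hxdef
    have hx' : x = 1 - κb := hx
    set ξ := (4 * (k : ℝ) ^ 2 / (θ * (n : ℝ))) ^ k with hξ
    set q := ((frozen X).card.choose k : ℝ) / ((T * n).choose k : ℝ) with hq
    have hκc : q / 2 ^ k ≤ (1 + θ / 2) * κb + ξ := by
      rw [hκb, div_le_iff₀ (by positivity)]
      have : ((1 + θ / 2) * (S / 2 ^ k) + ξ) * 2 ^ k = (1 + θ / 2) * S + ξ * 2 ^ k := by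
        field_simp
      rw [this]
      have : ξ ≤ ξ * 2 ^ k := by nlinarith
      linarith
    have h3 : θ * iter (hb : Fin T × Clause W k → Set (Fin T × W → Bool)) 2 X ≤ θ * (x * x) :=
      mul_le_mul_of_nonneg_left hsq hθ0.le
    rw [hx'] at h3 ⊢
    nlinarith [mul_nonneg hθ0.le (mul_nonneg hκb0 (by linarith : 0 ≤ 1 / 2 - κb))]
  · have h1 := (good_iter (hb : Fin T × Clause W k → Set (Fin T × W → Bool)) 1).2.1 X
    have h2 := (good_iter (hb : Fin T × Clause W k → Set (Fin T × W → Bool)) 2).2.1 X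
    have h3 := (good_avg (hset : Clause (Fin T × W) k → Set (Fin T × W → Bool)) good_ind).1 X
    rw [ind_of_not_nonempty hX] at h1 h2
    have h4 : (1 - θ) * iter (hb : Fin T × Clause W k → Set (Fin T × W → Bool)) 1 X ≤ 0 :=
      mul_nonpos_of_nonneg_of_nonpos (by linarith) h1
    have h5 : θ * iter (hb : Fin T × Clause W k → Set (Fin T × W → Bool)) 2 X ≤ 0 :=
      mul_nonpos_of_nonneg_of_nonpos hθ0.le h2
    linarith

end Vale.Agent.P170
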