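import Vale.Agent.P170.Avg

namespace Vale.Agent.P170

open Finset

variable {Ω : Type}

lemma avg_add_const {A : Type} [Fintype A] [Nonempty A] (h : A → Set Ω) (φ : Set Ω → ℝ) (c : ℝ)
    (X : Set Ω) : avg h (fun Y => φ Y + c) X = avg h φ X + c := by
  have := avg_lin h φ φ 1 0 c X
  simpa using this

lemma avg_le_mix {A A' : Type} [Fintype A] [Fintype A'] [Nonempty A] (h' : A' → Set Ω)
    (ι : A → A') (hι : Function.Injective ι) {φ : Set Ω → ℝ} (hφ : Good φ) (X : Set Ω) :
    avg h' φ X ≤ ((Fintype.card A : ℝ) / (Fintype.card A' : ℝ)) * avg (h' ∘ ι) φ X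
      + (1 - (Fintype.card A : ℝ) / (Fintype.card A' : ℝ)) * φ X := by
  classical
  obtain ⟨h0, h1, h2⟩ := hφ
  have hA : (0 : ℝ) < (Fintype.card A : ℝ) := by exact_mod_cast Fintype.card_pos
  have hle : Fintype.card A ≤ Fintype.card A' := Fintype.card_le_of_injective ι hι
  have hA' : (0 : ℝ) < (Fintype.card A' : ℝ) := lt_of_lt_of_le hA (by exact_mod_cast hle)
  have key : ∑ a' : A', φ (X ∩ h' a') ≤ ∑ a : A, φ (X ∩ h' (ι a))
      + ((Fintype.card A' : ℝ) - (Fintype.card A : ℝ)) * φ X := by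
    rw [← Finset.sum_add_sum_compl (univ.image ι) (fun a' => φ (X ∩ h' a'))]
    rw [Finset.sum_image (fun a _ b _ hab => hι hab)]
    have h3 : ∑ a' ∈ (univ.image ι)ᶜ, φ (X ∩ h' a') ≤ ∑ _a' ∈ (univ.image ι)ᶜ, φ X :=
      Finset.sum_le_sum (fun a' _ => h2 _ _ Set.inter_subset_left)
    have h4 : ∑ _a' ∈ (univ.image ι)ᶜ, φ X
        = ((Fintype.card A' : ℝ) - (Fintype.card A : ℝ)) * φ X := by
      rw [Finset.sum_const, Finset.card_compl, Finset.card_image_of_injective _ hι,
        Finset.card_univ, nsmul_eq_mul, Nat.cast_sub hle]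
    linarith
  unfold avg
  simp only [Function.comp]
  rw [div_le_iff₀ hA']
  have e : ((Fintype.card A : ℝ) / (Fintype.card A' : ℝ) *
        ((∑ a : A, φ (X ∩ h' (ι a))) / (Fintype.card A : ℝ)) +
      (1 - (Fintype.card A : ℝ) / (Fintype.card A' : ℝ)) * φ X) * (Fintype.card A' : ℝ)
      = ∑ a : A, φ (X ∩ h' (ι a)) + ((Fintype.card A' : ℝ) - (Fintype.card A : ℝ)) * φ X := by
    field_simp
  rw [e]
  exact key

lemma restrict_bound {A A' : Type} [Fintype A] [Fintype A'] [Nonempty A] (h' : A' → Set Ω)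
    (ι : A → A') (hι : Function.Injective ι) (z : ℝ) (hz : 1 ≤ z) (p : ℝ)
    (hp : p = (Fintype.card A : ℝ) / (Fintype.card A' : ℝ)) :
    ∀ (r i : ℕ) (X : Set Ω),
      iter h' r X ≤ iter (h' ∘ ι) i X + (p + (1 - p) * z) ^ r * z ^ i / z ^ (r + 1) := by
  have hA : (0 : ℝ) < (Fintype.card A : ℝ) := by exact_mod_cast Fintype.card_pos
  have hle : Fintype.card A ≤ Fintype.card A' := Fintype.card_le_of_injective ι hι
  have hA' : (0 : ℝ) < (Fintype.card A' : ℝ) := lt_of_lt_of_le hA (by exact_mod_cast hle)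
  have hp0 : 0 ≤ p := by rw [hp]; positivity
  have hp1 : p ≤ 1 := by
    rw [hp, div_le_one hA']
    exact_mod_cast hle
  have hz0 : 0 < z := by linarith
  have hw : 0 ≤ p + (1 - p) * z := by
    have : 0 ≤ (1 - p) * z := mul_nonneg (by linarith) hz0.le
    linarith
  have htail : ∀ r i : ℕ, 0 ≤ (p + (1 - p) * z) ^ r * z ^ i / z ^ (r + 1) := by
    intro r i
    positivity
  intro r
  induction r with
  | zero =>
    intro i X
    cases i with
    | zero =>
      have := htail 0 0
      rw [iter_zero, iter_zero]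
      linarith
    | succ i =>
      have h1 : iter h' 0 X ≤ 1 := iter_le_one h' 0 X
      have h2 : 0 ≤ iter (h' ∘ ι) (i + 1) X := iter_nonneg _ _ _
      have h3 : (1 : ℝ) ≤ (p + (1 - p) * z) ^ 0 * z ^ (i + 1) / z ^ (0 + 1) := by
        have : (p + (1 - p) * z) ^ 0 * z ^ (i + 1) / z ^ (0 + 1) = z ^ i := by
          field_simp
          ring
        rw [this]
        exact one_le_pow₀ hz
      linarith
  | succ r ih =>
    intro i X
    cases i with
    | zero =>
      have h1 := iter_le_ind h' (r + 1) X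
      have := htail (r + 1) 0
      rw [iter_zero]
      linarith
    | succ i =>
      have s1 : iter h' (r + 1) X ≤ p * avg (h' ∘ ι) (iter h' r) X + (1 - p) * iter h' r X := by
        rw [iter_succ, hp]
        exact avg_le_mix h' ι hι (good_iter h' r) X
      have s2 : avg (h' ∘ ι) (iter h' r) X
          ≤ iter (h' ∘ ι) (i + 1) X + (p + (1 - p) * z) ^ r * z ^ i / z ^ (r + 1) := by
        rw [iter_succ, ← avg_add_const]
        exact avg_le_avg _ (fun Y => ih i Y) X
      have s3 := ih (i + 1) X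
      have e : p * ((p + (1 - p) * z) ^ r * z ^ i / z ^ (r + 1))
          + (1 - p) * ((p + (1 - p) * z) ^ r * z ^ (i + 1) / z ^ (r + 1))
          = (p + (1 - p) * z) ^ (r + 1) * z ^ (i + 1) / z ^ (r + 1 + 1) := by
        field_simp
        ring
      have s4 : p * avg (h' ∘ ι) (iter h' r) X ≤ p * (iter (h' ∘ ι) (i + 1) X
          + (p + (1 - p) * z) ^ r * z ^ i / z ^ (r + 1)) := mul_le_mul_of_nonneg_left s2 hp0
      have s5 : (1 - p) * iter h' r X ≤ (1 - p) * (iter (h' ∘ ι) (i + 1) X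
          + (p + (1 - p) * z) ^ r * z ^ (i + 1) / z ^ (r + 1)) :=
        mul_le_mul_of_nonneg_left s3 (by linarith)
      rw [← e]
      nlinarith [s1, s4, s5]

end Vale.Agent.P170
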