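import Vale.Agent.P170.Defs
import Vale.Agent.P170.Restrict

namespace Vale.Agent.P170

open Finset

variable {V V' : Type} [DecidableEq V] [DecidableEq V'] {k : ℕ}

instance instFintypeClause [Fintype V] : Fintype (Clause V k) :=
  inferInstanceAs (Fintype {p : Finset V × Finset V // p.1.card = k ∧ p.2 ⊆ p.1})

def clauseEquivSigma (V : Type) [DecidableEq V] (k : ℕ) :
    Clause V k ≃ Σ S : {S : Finset V // S.card = k}, {P : Finset V // P ∈ S.1.powerset} where
  toFun c := ⟨⟨c.1.1, c.2.1⟩, ⟨c.1.2, Finset.mem_powerset.2 c.2.2⟩⟩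
  invFun x := ⟨(x.1.1, x.2.1), x.1.2, Finset.mem_powerset.1 x.2.2⟩
  left_inv _ := rfl
  right_inv _ := rfl

lemma card_clause [Fintype V] :
    Fintype.card (Clause V k) = (Fintype.card V).choose k * 2 ^ k := by
  rw [Fintype.card_congr (clauseEquivSigma V k), Fintype.card_sigma]
  have : ∀ S : {S : Finset V // S.card = k},
      Fintype.card {P : Finset V // P ∈ S.1.powerset} = 2 ^ k := by
    intro S
    rw [Fintype.card_coe, Finset.card_powerset, S.2]
  rw [Finset.sum_congr rfl (fun S _ => this S), Finset.sum_const, Finset.card_univ,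
    Fintype.card_finset_len, smul_eq_mul]

lemma nonempty_clause [Fintype V] (hk : k ≤ Fintype.card V) : Nonempty (Clause V k) := by
  rw [← Fintype.card_pos_iff, card_clause]
  exact Nat.mul_pos (Nat.choose_pos hk) (by positivity)

def Clause.map (f : V ↪ V') (c : Clause V k) : Clause V' k :=
  ⟨(c.1.1.map f, c.1.2.map f), by
    refine ⟨?_, ?_⟩
    · rw [Finset.card_map]; exact c.2.1
    · exact Finset.map_subset_map.2 c.2.2⟩

lemma Clause.map_injective (f : V ↪ V') :
    Function.Injective (Clause.map f : Clause V k → Clause V' k) := by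
  intro c d hcd
  have h1 : c.1.1.map f = d.1.1.map f := congrArg (fun x : Clause V' k => x.1.1) hcd
  have h2 : c.1.2.map f = d.1.2.map f := congrArg (fun x : Clause V' k => x.1.2) hcd
  apply Subtype.ext
  exact Prod.ext (Finset.map_injective f h1) (Finset.map_injective f h2)

lemma Clause.holds_map (f : V ↪ V') (c : Clause V k) (σ : V' → Bool) :
    (c.map f).Holds σ ↔ c.Holds (σ ∘ f) := by
  unfold Clause.Holds Clause.map
  constructor
  · rintro ⟨v', hv', hiff⟩
    obtain ⟨v, hv, rfl⟩ := Finset.mem_map.1 hv'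
    refine ⟨v, hv, ?_⟩
    rw [Function.comp, hiff]
    exact Finset.mem_map' f
  · rintro ⟨v, hv, hiff⟩
    refine ⟨f v, Finset.mem_map_of_mem f hv, ?_⟩
    rw [Function.comp] at hiff
    rw [hiff]
    exact (Finset.mem_map' f).symm

/-- the set of assignments satisfying a clause -/
def hset (c : Clause V k) : Set (V → Bool) := {σ | c.Holds σ}

lemma ind_preimage {Ω Ω' : Type} (ρ : Ω' → Ω) (hρ : Function.Surjective ρ) (X : Set Ω) :
    ind (ρ ⁻¹' X) = ind X := by
  by_cases hX : X.Nonempty
  · rw [ind_of_nonempty hX, ind_of_nonempty (hX.preimage hρ)]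
  · rw [ind_of_not_nonempty hX, ind_of_not_nonempty]
    intro h
    obtain ⟨x, hx⟩ := h
    exact hX ⟨ρ x, hx⟩

lemma iter_preimage {Ω Ω' A : Type} [Fintype A] (ρ : Ω' → Ω) (hρ : Function.Surjective ρ)
    (h : A → Set Ω) (m : ℕ) : ∀ X : Set Ω,
    iter (fun a => ρ ⁻¹' h a) m (ρ ⁻¹' X) = iter h m X := by
  induction m with
  | zero => intro X; exact ind_preimage ρ hρ X
  | succ m ih =>
    intro X
    rw [iter_succ, iter_succ]
    unfold avg
    congr 1
    refine Finset.sum_congr rfl (fun a _ => ?_)
    rw [← Set.preimage_inter]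
    exact ih _

lemma iter_reindex {Ω A B : Type} [Fintype A] [Fintype B] (e : A ≃ B) (h : B → Set Ω) (m : ℕ) :
    iter (h ∘ e) m = iter h m := by
  induction m with
  | zero => rfl
  | succ m ih =>
    rw [iter_succ, iter_succ, ih]
    funext X
    unfold avg
    rw [Fintype.card_congr e]
    congr 1
    exact Equiv.sum_comp e (fun b => iter h m (X ∩ h b))

/-- the satisfiability probability over a general finite variable type -/
noncomputable def prV (V : Type) [DecidableEq V] [Fintype V] (k m : ℕ) : ℝ :=
  iter (hset : Clause V k → Set (V → Bool)) m Set.univ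

lemma satProb_eq (k n m : ℕ) (hk : k ≤ n) : satProb k n m = prV (Fin n) k m := by
  have hne : Nonempty (Clause (Fin n) k) := nonempty_clause (by simpa using hk)
  have h1 := card_eq (hset : Clause (Fin n) k → Set (Fin n → Bool)) m Set.univ
  have h2 : Nat.card {F : Fin m → Clause (Fin n) k // Satisfiable F}
      = Nat.card {F : Fin m → Clause (Fin n) k // ∃ σ ∈ (Set.univ : Set (Fin n → Bool)),
          ∀ i, σ ∈ hset (F i)} := by
    apply Nat.card_congr
    apply Equiv.subtypeEquivRight
    intro F
    simp [Satisfiable, hset]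
  have h3 : (Nat.card (Fin m → Clause (Fin n) k) : ℝ)
      = (Fintype.card (Clause (Fin n) k) : ℝ) ^ m := by
    rw [Nat.card_eq_fintype_card, Fintype.card_fun]
    simp
  unfold satProb prV
  rw [h2, h1, h3]
  have hpos : (Fintype.card (Clause (Fin n) k) : ℝ) ≠ 0 := by
    exact_mod_cast Fintype.card_ne_zero
  field_simp

lemma prV_nonneg (V : Type) [DecidableEq V] [Fintype V] (k m : ℕ) : 0 ≤ prV V k m :=
  iter_nonneg _ _ _

lemma prV_le_one (V : Type) [DecidableEq V] [Fintype V] (k m : ℕ) : prV V k m ≤ 1 :=
  iter_le_one _ _ _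

lemma prV_anti (V : Type) [DecidableEq V] [Fintype V] (k : ℕ) {m m' : ℕ} (h : m ≤ m') :
    prV V k m' ≤ prV V k m :=
  iter_anti _ h _

lemma surj_comp_emb (f : V ↪ V') :
    Function.Surjective (fun σ : V' → Bool => σ ∘ f) := by
  classical
  intro σ
  refine ⟨fun v' => if h : ∃ v, f v = v' then σ h.choose else false, ?_⟩
  funext v
  have hex : ∃ w, f w = f v := ⟨v, rfl⟩
  simp only [Function.comp, dif_pos hex]
  congr 1
  exact f.injective hex.choose_spec

lemma iter_map_eq [Fintype V] (f : V ↪ V') (m : ℕ) :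
    iter ((hset : Clause V' k → Set (V' → Bool)) ∘ Clause.map f) m Set.univ = prV V k m := by
  have h1 : ((hset : Clause V' k → Set (V' → Bool)) ∘ Clause.map f)
      = fun c : Clause V k => (fun σ : V' → Bool => σ ∘ f) ⁻¹' hset c := by
    funext c
    ext σ
    simp only [Function.comp, hset, Set.mem_setOf_eq, Set.mem_preimage]
    exact Clause.holds_map f c σ
  rw [h1]
  have := iter_preimage (fun σ : V' → Bool => σ ∘ f) (surj_comp_emb f)
    (hset : Clause V k → Set (V → Bool)) m Set.univ
  rw [Set.preimage_univ] at this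
  exact this

/-- restriction inequality for general variable types -/
lemma prV_restrict [Fintype V] [Fintype V'] (f : V ↪ V') (hk : k ≤ Fintype.card V)
    (z : ℝ) (hz : 1 ≤ z) (p : ℝ)
    (hp : p = ((Fintype.card V).choose k : ℝ) / ((Fintype.card V').choose k : ℝ)) (r i : ℕ) :
    prV V' k r ≤ prV V k i + (p + (1 - p) * z) ^ r * z ^ i / z ^ (r + 1) := by
  have hne : Nonempty (Clause V k) := nonempty_clause hk
  have hp' : p = (Fintype.card (Clause V k) : ℝ) / (Fintype.card (Clause V' k) : ℝ) := by
    rw [hp, card_clause, card_clause]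
    push_cast
    have : ((2 : ℝ) ^ k) ≠ 0 := by positivity
    rw [mul_div_mul_right _ _ this]
  have := restrict_bound (hset : Clause V' k → Set (V' → Bool)) (Clause.map f)
    (Clause.map_injective f) z hz p hp' r i Set.univ
  rw [iter_map_eq] at this
  exact this

/-- invariance under bijections of the variable set -/
lemma prV_congr [Fintype V] [Fintype V'] (f : V ≃ V') (m : ℕ) : prV V' k m = prV V k m := by
  have hcard : Fintype.card (Clause V k) = Fintype.card (Clause V' k) := by
    rw [card_clause, card_clause, Fintype.card_congr f]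
  have hbij : Function.Bijective (Clause.map f.toEmbedding : Clause V k → Clause V' k) :=
    (Fintype.bijective_iff_injective_and_card _).2 ⟨Clause.map_injective _, hcard⟩
  have h1 := iter_reindex (Equiv.ofBijective _ hbij)
    (hset : Clause V' k → Set (V' → Bool)) m
  have h2 := iter_map_eq (k := k) f.toEmbedding m
  unfold prV
  rw [← h1]
  exact h2

end Vale.Agent.P170
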