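import Mathlib

namespace Vale.Agent.P170

open Filter Topology

/-- A proper `k`-clause over the variable set `V`: the pair consisting of the `k`-element set of
its variables and the subset of those variables that occur positively (the others are negated). -/
def Clause (V : Type) [DecidableEq V] (k : ℕ) : Type :=
  {p : Finset V × Finset V // p.1.card = k ∧ p.2 ⊆ p.1}

/-- The assignment `σ` makes the clause true: some variable of the clause carries a true literal. -/
def Clause.Holds {V : Type} [DecidableEq V] {k : ℕ} (c : Clause V k) (σ : V → Bool) : Prop :=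
  ∃ v ∈ c.1.1, (σ v = true ↔ v ∈ c.1.2)

/-- The formula `F 0 ∧ ... ∧ F (m-1)` is satisfiable. -/
def Satisfiable {V : Type} [DecidableEq V] {k m : ℕ} (F : Fin m → Clause V k) : Prop :=
  ∃ σ : V → Bool, ∀ i, (F i).Holds σ

/-- `P_{k,n}(m)`: the fraction of satisfiable formulas among all sequences of `m` proper
`k`-clauses on `n` variables, that is the probability that `m` independent uniform proper
`k`-clauses are simultaneously satisfiable. -/
noncomputable def satProb (k n m : ℕ) : ℝ :=
  (Nat.card {F : Fin m → Clause (Fin n) k // Satisfiable F} : ℝ) /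
    (Nat.card (Fin m → Clause (Fin n) k) : ℝ)

/-- Random `k`-SAT has the limiting threshold `α`. -/
def HasLimitingThreshold (k : ℕ) (α : ℝ) : Prop :=
  0 < α ∧
  (∀ c : ℝ, 0 ≤ c → c < α → Tendsto (fun n : ℕ => satProb k n ⌊c * n⌋₊) atTop (𝓝 1)) ∧
  (∀ c : ℝ, α < c → Tendsto (fun n : ℕ => satProb k n ⌊c * n⌋₊) atTop (𝓝 0))

end Vale.Agent.P170
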