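import Vale.Agent.P170.ClauseBasic

namespace Vale.Agent.P170

open Finset Real

lemma choose_ratio (k n : ℕ) (hn : 1 ≤ n) (hk : k ≤ n) : ∀ n' : ℕ, n ≤ n' →
    (1 - (k : ℝ) * ((n' : ℝ) - n) / n) * (n'.choose k : ℝ) ≤ (n.choose k : ℝ) := by
  have hn0 : (0 : ℝ) < n := by exact_mod_cast hn
  intro n' hnn'
  induction n', hnn' using Nat.le_induction with
  | base => simp
  | succ n' hnn' ih =>
    have hrec : (n'.choose k : ℝ) * ((n' : ℝ) + 1) = ((n' + 1).choose k : ℝ) * ((n' : ℝ) + 1 - k) := by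
      have h := Nat.choose_mul_succ_eq n' k
      have hk' : k ≤ n' + 1 := by omega
      have : ((n'.choose k * (n' + 1) : ℕ) : ℝ) = (((n' + 1).choose k * (n' + 1 - k) : ℕ) : ℝ) := by
        rw [h]
      rw [Nat.cast_mul, Nat.cast_mul, Nat.cast_sub hk'] at this
      push_cast at this
      exact this
    set a := (n'.choose k : ℝ) with ha
    set b := ((n' + 1).choose k : ℝ) with hb
    have hb0 : 0 ≤ b := by rw [hb]; positivity
    have hn'0 : (0 : ℝ) < (n' : ℝ) + 1 := by positivity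
    have hnn'r : (n : ℝ) ≤ n' := by exact_mod_cast hnn'
    set x := (k : ℝ) * ((n' : ℝ) - n) / n with hx
    have hx0 : 0 ≤ x := by
      rw [hx]
      apply div_nonneg (mul_nonneg (by positivity) (by linarith)) hn0.le
    have hgoal : (1 - (k : ℝ) * (((n' + 1 : ℕ) : ℝ) - n) / n) = 1 - x - k / n := by
      rw [hx]; push_cast; field_simp; ring
    rw [hgoal]
    have hkn : (0 : ℝ) ≤ (k : ℝ) / n := by positivity
    by_cases h1 : 1 - x ≤ 0
    · have : (1 - x - k / n) * b ≤ 0 := mul_nonpos_of_nonpos_of_nonneg (by linarith) hb0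
      have h2 : (0 : ℝ) ≤ (n.choose k : ℝ) := by positivity
      linarith
    · push Not at h1
      have ha_eq : a = b * (1 - k / ((n' : ℝ) + 1)) := by
        field_simp
        linarith
      have hy : (k : ℝ) / ((n' : ℝ) + 1) ≤ k / n := by
        apply div_le_div_of_nonneg_left (by positivity) hn0 (by linarith)
      have hy0 : (0 : ℝ) ≤ (k : ℝ) / ((n' : ℝ) + 1) := by positivity
      calc (1 - x - k / n) * b ≤ ((1 - x) * (1 - k / ((n' : ℝ) + 1))) * b := by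
            apply mul_le_mul_of_nonneg_right _ hb0
            nlinarith
        _ = (1 - x) * a := by rw [ha_eq]; ring
        _ ≤ (n.choose k : ℝ) := ih

lemma tail_exp (p : ℝ) (hp1 : p ≤ 1) (hp0 : 0 ≤ p) (r i : ℕ) :
    (p + (1 - p) * exp 1) ^ r * (exp 1) ^ i / (exp 1) ^ (r + 1)
      ≤ exp (2 * (1 - p) * r + i - ((r : ℝ) + 1)) := by
  have he : exp 1 - 1 ≤ 2 := by
    have := Real.exp_one_lt_d9
    linarith
  have he1 : (1 : ℝ) ≤ exp 1 := by
    have := Real.add_one_le_exp (1 : ℝ)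
    linarith
  have h1 : p + (1 - p) * exp 1 ≤ exp (2 * (1 - p)) := by
    have h2 : p + (1 - p) * exp 1 = (1 - p) * (exp 1 - 1) + 1 := by ring
    rw [h2]
    have h3 : (1 - p) * (exp 1 - 1) ≤ 2 * (1 - p) := by nlinarith
    have h4 := Real.add_one_le_exp (2 * (1 - p))
    linarith
  have h0 : 0 ≤ p + (1 - p) * exp 1 := by
    have : 0 ≤ (1 - p) * exp 1 := mul_nonneg (by linarith) (by linarith)
    linarith
  have h5 : (p + (1 - p) * exp 1) ^ r ≤ exp (2 * (1 - p) * r) := by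
    calc (p + (1 - p) * exp 1) ^ r ≤ (exp (2 * (1 - p))) ^ r := pow_le_pow_left₀ h0 h1 r
      _ = exp (2 * (1 - p) * r) := by
          rw [← Real.exp_nat_mul]; ring_nf
  rw [Real.exp_one_pow, Real.exp_one_pow]
  have h6 : exp (2 * (1 - p) * r + i - ((r : ℝ) + 1))
      = exp (2 * (1 - p) * r) * exp (i : ℝ) / exp (((r + 1 : ℕ) : ℝ)) := by
    rw [Real.exp_sub, Real.exp_add]; push_cast; rfl
  rw [h6]
  apply div_le_div_of_nonneg_right _ (exp_pos _).le
  exact mul_le_mul_of_nonneg_right h5 (exp_pos _).le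

lemma satProb_restrict (k n n' : ℕ) (hk : k ≤ n) (hn : 1 ≤ n) (hnn' : n ≤ n') (r i : ℕ) :
    satProb k n' r ≤ satProb k n i
      + exp (2 * ((k : ℝ) * ((n' : ℝ) - n) / n) * r + i - ((r : ℝ) + 1)) := by
  rw [satProb_eq k n' r (hk.trans hnn'), satProb_eq k n i hk]
  set p : ℝ := (n.choose k : ℝ) / (n'.choose k : ℝ) with hp
  have hc' : (0 : ℝ) < (n'.choose k : ℝ) := by
    exact_mod_cast Nat.choose_pos (hk.trans hnn')
  have hp0 : 0 ≤ p := by rw [hp]; positivity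
  have hp1 : p ≤ 1 := by
    rw [hp, div_le_one hc']
    exact_mod_cast Nat.choose_le_choose k hnn'
  have hq : 1 - p ≤ (k : ℝ) * ((n' : ℝ) - n) / n := by
    have := choose_ratio k n hn hk n' hnn'
    have h2 : 1 - (k : ℝ) * ((n' : ℝ) - n) / n ≤ p := by
      rw [hp, le_div_iff₀ hc']
      exact this
    linarith
  have he1 : (1 : ℝ) ≤ exp 1 := by
    have := Real.add_one_le_exp (1 : ℝ)
    linarith
  have h1 := prV_restrict (k := k) (Fin.castLEEmb hnn') (by simpa using hk) (exp 1) he1 p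
    (by simp [hp]) r i
  have h2 := tail_exp p hp1 hp0 r i
  have h3 : exp (2 * (1 - p) * r + i - ((r : ℝ) + 1))
      ≤ exp (2 * ((k : ℝ) * ((n' : ℝ) - n) / n) * r + i - ((r : ℝ) + 1)) := by
    apply Real.exp_le_exp.2
    have : (0 : ℝ) ≤ r := by positivity
    nlinarith
  linarith

lemma exp_neg_small (δ ε : ℝ) (hδ : 0 < δ) (hε : 0 < ε) :
    ∃ n₀ : ℕ, ∀ n : ℕ, n₀ ≤ n → exp (-(δ * n)) ≤ ε := by
  obtain ⟨n₀, hn₀⟩ := exists_nat_ge (1 / (δ * ε))
  refine ⟨n₀, fun n hn => ?_⟩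
  have h1 : 1 / (δ * ε) ≤ n := hn₀.trans (by exact_mod_cast hn)
  have h2 : 1 / ε ≤ δ * n := by
    rw [div_le_iff₀ (by positivity)] at h1
    rw [div_le_iff₀ hε]
    nlinarith
  rw [Real.exp_neg]
  have h3 : 1 / ε ≤ exp (δ * n) := by
    have := Real.add_one_le_exp (δ * n)
    linarith
  rw [inv_le_comm₀ (exp_pos _) hε]
  simpa using h3

lemma lemmaA (k : ℕ) (c c' : ℝ) (hc : 0 ≤ c) (hcc' : c < c') :
    ∃ η : ℝ, 0 < η ∧ ∀ ε : ℝ, 0 < ε → ∃ n₀ : ℕ, ∀ n n' : ℕ, n₀ ≤ n → n ≤ n' →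
      (n' : ℝ) ≤ (1 + η) * n →
      satProb k n' ⌊c' * n'⌋₊ ≤ satProb k n ⌊c * n⌋₊ + ε := by
  have hc' : 0 < c' := lt_of_le_of_lt hc hcc'
  set δ := c' - c with hδ
  have hδ0 : 0 < δ := by rw [hδ]; linarith
  set η := min 1 (δ / (8 * ((k : ℝ) + 1) * c')) with hη
  have hη0 : 0 < η := by
    rw [hη]
    apply lt_min one_pos
    positivity
  have hη1 : η ≤ 1 := min_le_left _ _
  have hη2 : η ≤ δ / (8 * ((k : ℝ) + 1) * c') := min_le_right _ _
  refine ⟨η, hη0, fun ε hε => ?_⟩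
  obtain ⟨n₁, hn₁⟩ := exp_neg_small (δ / 2) ε (by positivity) hε
  refine ⟨max n₁ (max k 1), fun n n' hn hnn' hn' => ?_⟩
  have hn1 : n₁ ≤ n := (le_max_left _ _).trans hn
  have hnk : k ≤ n := ((le_max_left _ _).trans (le_max_right _ _)).trans hn
  have hn11 : 1 ≤ n := ((le_max_right _ _).trans (le_max_right _ _)).trans hn
  have hn0 : (0 : ℝ) < n := by exact_mod_cast hn11
  have hnn'r : (n : ℝ) ≤ n' := by exact_mod_cast hnn'
  have h1 := satProb_restrict k n n' hnk hn11 hnn' ⌊c' * n'⌋₊ ⌊c * n⌋₊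
  refine h1.trans ?_
  have h2 : exp (2 * ((k : ℝ) * ((n' : ℝ) - n) / n) * (⌊c' * n'⌋₊ : ℝ) + (⌊c * n⌋₊ : ℝ)
      - ((⌊c' * n'⌋₊ : ℝ) + 1)) ≤ exp (-(δ / 2 * n)) := by
    apply Real.exp_le_exp.2
    have hr1 : (⌊c' * n'⌋₊ : ℝ) ≤ c' * n' := Nat.floor_le (by positivity)
    have hr2 : c' * n' < (⌊c' * n'⌋₊ : ℝ) + 1 := Nat.lt_floor_add_one _
    have hi : (⌊c * n⌋₊ : ℝ) ≤ c * n := Nat.floor_le (by positivity)
    have hq : (k : ℝ) * ((n' : ℝ) - n) / n ≤ k * η := by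
      rw [div_le_iff₀ hn0]
      have : (n' : ℝ) - n ≤ η * n := by linarith
      have hk0 : (0 : ℝ) ≤ k := by positivity
      nlinarith
    have hq0 : 0 ≤ (k : ℝ) * ((n' : ℝ) - n) / n := by
      apply div_nonneg (mul_nonneg (by positivity) (by linarith)) hn0.le
    have hr3 : (⌊c' * n'⌋₊ : ℝ) ≤ 2 * c' * n := by
      have : (n' : ℝ) ≤ 2 * n := by nlinarith
      nlinarith
    have hr0 : (0 : ℝ) ≤ (⌊c' * n'⌋₊ : ℝ) := by positivity
    have hkη : (k : ℝ) * η * (4 * c') ≤ δ / 2 := by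
      have h3 : η * (8 * ((k : ℝ) + 1) * c') ≤ δ := by
        rwa [le_div_iff₀ (by positivity)] at hη2
      have hk0 : (0 : ℝ) ≤ k := by positivity
      nlinarith
    have h4 : 2 * ((k : ℝ) * ((n' : ℝ) - n) / n) * (⌊c' * n'⌋₊ : ℝ) ≤ 2 * (k * η) * (2 * c' * n) := by
      apply mul_le_mul (by linarith) hr3 hr0 (by positivity)
    have h5 : 2 * ((k : ℝ) * η) * (2 * c' * n) ≤ δ / 2 * n := by
      nlinarith
    have h6 : c' * n ≤ c' * n' := by nlinarith
    have h7 : δ * n = c' * n - c * n := by rw [hδ]; ring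
    nlinarith
  have h3 := hn₁ n hn1
  linarith

end Vale.Agent.P170
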