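import Vale.Agent.P170.Product
import Vale.Agent.P170.LemmaA

namespace Vale.Agent.P170

open Finset Real

theorem prV_super {W : Type} [DecidableEq W] [Fintype W] {T k : ℕ} (hk1 : 1 ≤ k)
    (hk : k ≤ Fintype.card W) (hT : 1 ≤ T) (θ : ℝ) (hθ0 : 0 < θ) (hθ1 : θ ≤ 1)
    (z₁ z₂ : ℝ) (hz₁ : 1 ≤ z₁) (hz₂ : 1 ≤ z₂) (M j i : ℕ) :
    prV W k i ^ T - (T : ℝ) * ((((T : ℝ) - 1 + z₂) / T) ^ (M + j) * (1 / z₂) ^ (i + 1))
      - M * (4 * (k : ℝ) ^ 2 / (θ * (Fintype.card W : ℝ))) ^ k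
      - (1 - θ + θ * z₁) ^ M / z₁ ^ (j + 1)
      ≤ prV (Fin T × W) k M := by
  have hW : Nonempty (Clause W k) := nonempty_clause hk
  have hTne : Nonempty (Fin T) := ⟨⟨0, hT⟩⟩
  have hB : Nonempty (Fin T × Clause W k) := inferInstance
  have hkV : k ≤ Fintype.card (Fin T × W) := by
    rw [Fintype.card_prod, Fintype.card_fin]
    exact hk.trans (Nat.le_mul_of_pos_left _ hT)
  have hA : Nonempty (Clause (Fin T × W) k) := nonempty_clause hkV
  have h1 := interpolation (hset : Clause (Fin T × W) k → Set (Fin T × W → Bool))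
    (hb : Fin T × Clause W k → Set (Fin T × W → Bool)) θ
    ((4 * (k : ℝ) ^ 2 / (θ * (Fintype.card W : ℝ))) ^ k) z₁ hθ0.le hθ1 (by positivity) hz₁
    (base_ineq hk1 hk hT θ hθ0 hθ1) M 0 j Set.univ
  have h2 := product_bound hW hT z₂ hz₂ (M + j) (fun _ => i) (fun _ => Set.univ)
  rw [box_univ] at h2
  simp only [Finset.prod_const, Finset.sum_const, Finset.card_univ, Fintype.card_fin,
    nsmul_eq_mul] at h2
  rw [zero_add] at h1
  have h3 : (avg (hset : Clause (Fin T × W) k → Set (Fin T × W → Bool)))^[M]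
      (iter (hb : Fin T × Clause W k → Set (Fin T × W → Bool)) 0) Set.univ
      = prV (Fin T × W) k M := rfl
  rw [h3] at h1
  have h4 : iter (hset : Clause W k → Set (W → Bool)) i Set.univ = prV W k i := rfl
  rw [h4] at h2
  nlinarith [h1, h2]

theorem satProb_super (k n T : ℕ) (hk1 : 1 ≤ k) (hk : k ≤ n) (hT : 1 ≤ T) (θ : ℝ) (hθ0 : 0 < θ)
    (hθ1 : θ ≤ 1) (h : ℝ) (hh0 : 0 ≤ h) (hh1 : h ≤ 1) (M j i : ℕ) :
    satProb k n i ^ T
      - (T : ℝ) * exp (((M : ℝ) + j) * (h + h ^ 2) / T - h * ((i : ℝ) + 1))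
      - M * (4 * (k : ℝ) ^ 2 / (θ * (n : ℝ))) ^ k
      - exp (2 * θ * M - ((j : ℝ) + 1))
      ≤ satProb k (T * n) M := by
  have hkT : k ≤ T * n := hk.trans (Nat.le_mul_of_pos_left _ hT)
  rw [satProb_eq k n i hk, satProb_eq k (T * n) M hkT,
    prV_congr (k := k) (finProdFinEquiv : Fin T × Fin n ≃ Fin (T * n)) M]
  have he1 : (1 : ℝ) ≤ exp 1 := by
    have := Real.add_one_le_exp (1 : ℝ)
    linarith
  have heh : (1 : ℝ) ≤ exp h := by
    have := Real.add_one_le_exp h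
    linarith
  have hT0 : (0 : ℝ) < T := by exact_mod_cast hT
  have h1 := prV_super (W := Fin n) (T := T) hk1 (by simpa using hk) hT θ hθ0 hθ1 (exp 1) (exp h)
    he1 heh M j i
  rw [Fintype.card_fin] at h1
  -- first tail
  have t1 : (1 - θ + θ * exp 1) ^ M / (exp 1) ^ (j + 1) ≤ exp (2 * θ * M - ((j : ℝ) + 1)) := by
    have he : exp 1 - 1 ≤ 2 := by
      have := Real.exp_one_lt_d9
      linarith
    have a1 : 1 - θ + θ * exp 1 ≤ exp (2 * θ) := by
      have a2 := Real.add_one_le_exp (2 * θ)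
      nlinarith
    have a0 : 0 ≤ 1 - θ + θ * exp 1 := by nlinarith
    have a3 : (1 - θ + θ * exp 1) ^ M ≤ exp (2 * θ * M) := by
      calc (1 - θ + θ * exp 1) ^ M ≤ (exp (2 * θ)) ^ M := pow_le_pow_left₀ a0 a1 M
        _ = exp (2 * θ * M) := by rw [← Real.exp_nat_mul]; ring_nf
    rw [Real.exp_one_pow, Real.exp_sub]
    push_cast
    exact div_le_div_of_nonneg_right a3 (exp_pos _).le
  -- second tail
  have t2 : (((T : ℝ) - 1 + exp h) / T) ^ (M + j) * (1 / exp h) ^ (i + 1)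
      ≤ exp (((M : ℝ) + j) * (h + h ^ 2) / T - h * ((i : ℝ) + 1)) := by
    have b1 : exp h - 1 ≤ h + h ^ 2 := by
      have := Real.abs_exp_sub_one_sub_id_le (x := h) (by rw [abs_of_nonneg hh0]; exact hh1)
      have := (abs_le.1 this).2
      linarith
    have b2 : ((T : ℝ) - 1 + exp h) / T ≤ exp ((h + h ^ 2) / T) := by
      have b3 : ((T : ℝ) - 1 + exp h) / T = (exp h - 1) / T + 1 := by field_simp; ring
      rw [b3]
      have b4 := Real.add_one_le_exp ((h + h ^ 2) / T)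
      have b5 : (exp h - 1) / T ≤ (h + h ^ 2) / T := div_le_div_of_nonneg_right b1 hT0.le
      linarith
    have b0 : 0 ≤ ((T : ℝ) - 1 + exp h) / T := by
      apply div_nonneg _ hT0.le
      have : (1 : ℝ) ≤ T := by exact_mod_cast hT
      linarith
    have b6 : (((T : ℝ) - 1 + exp h) / T) ^ (M + j) ≤ exp (((M : ℝ) + j) * (h + h ^ 2) / T) := by
      calc (((T : ℝ) - 1 + exp h) / T) ^ (M + j) ≤ (exp ((h + h ^ 2) / T)) ^ (M + j) :=
            pow_le_pow_left₀ b0 b2 _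
        _ = exp (((M : ℝ) + j) * (h + h ^ 2) / T) := by
            rw [← Real.exp_nat_mul]; push_cast; ring_nf
    have b7 : (1 / exp h) ^ (i + 1) = exp (-(h * ((i : ℝ) + 1))) := by
      rw [one_div, ← Real.exp_neg, ← Real.exp_nat_mul]
      push_cast
      ring_nf
    have b8 : exp (((M : ℝ) + j) * (h + h ^ 2) / T - h * ((i : ℝ) + 1))
        = exp (((M : ℝ) + j) * (h + h ^ 2) / T) * exp (-(h * ((i : ℝ) + 1))) := by
      rw [← Real.exp_add]; ring_nf
    rw [b7, b8]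
    exact mul_le_mul_of_nonneg_right b6 (exp_pos _).le
  have t2' := mul_le_mul_of_nonneg_left t2 hT0.le
  linarith

end Vale.Agent.P170
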