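import Vale.Agent.P170.ClauseBasic

namespace Vale.Agent.P170

open Finset

variable {V : Type} [DecidableEq V] [Fintype V] {k : ℕ}

/-- the variables that take the same value in all assignments of `X` -/
noncomputable def frozen (X : Set (V → Bool)) : Finset V := by
  classical exact univ.filter (fun v => ∀ σ ∈ X, ∀ τ ∈ X, σ v = τ v)

lemma mem_frozen (X : Set (V → Bool)) (v : V) :
    v ∈ frozen X ↔ ∀ σ ∈ X, ∀ τ ∈ X, σ v = τ v := by
  classical
  simp [frozen]

lemma kill_iff (X : Set (V → Bool)) (σ₀ : V → Bool) (h₀ : σ₀ ∈ X) (c : Clause V k) :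
    ¬ (X ∩ hset c).Nonempty ↔
      c.1.1 ⊆ frozen X ∧ c.1.2 = c.1.1.filter (fun v => σ₀ v = false) := by
  constructor
  · intro hkill
    have hk : ∀ σ ∈ X, ∀ v ∈ c.1.1, ¬ (σ v = true ↔ v ∈ c.1.2) := by
      intro σ hσ v hv hiff
      exact hkill ⟨σ, hσ, v, hv, hiff⟩
    refine ⟨fun v hv => ?_, ?_⟩
    · rw [mem_frozen]
      intro σ hσ τ hτ
      have h1 := hk σ hσ v hv
      have h2 := hk τ hτ v hv
      by_cases hp : v ∈ c.1.2
      · have a1 : σ v = false := by
          cases hσv : σ v
          · rfl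
          · exact absurd (iff_of_true hσv hp) h1
        have a2 : τ v = false := by
          cases hτv : τ v
          · rfl
          · exact absurd (iff_of_true hτv hp) h2
        rw [a1, a2]
      · have a1 : σ v = true := by
          cases hσv : σ v
          · exact absurd (iff_of_false (by simp [hσv]) hp) h1
          · rfl
        have a2 : τ v = true := by
          cases hτv : τ v
          · exact absurd (iff_of_false (by simp [hτv]) hp) h2
          · rfl
        rw [a1, a2]
    · ext v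
      rw [Finset.mem_filter]
      constructor
      · intro hp
        have hv := c.2.2 hp
        refine ⟨hv, ?_⟩
        have h1 := hk σ₀ h₀ v hv
        cases hσv : σ₀ v
        · rfl
        · exact absurd (iff_of_true hσv hp) h1
      · rintro ⟨hv, hf⟩
        by_contra hp
        exact hk σ₀ h₀ v hv (iff_of_false (by simp [hf]) hp)
  · rintro ⟨hsub, hpos⟩ ⟨σ, hσ, v, hv, hiff⟩
    have h1 : σ v = σ₀ v := (mem_frozen X v).1 (hsub hv) σ hσ σ₀ h₀
    rw [hpos, Finset.mem_filter, h1] at hiff
    cases hσv : σ₀ v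
    · rw [hσv] at hiff
      have := hiff.2 ⟨hv, rfl⟩
      simp at this
    · rw [hσv] at hiff
      have := (hiff.1 rfl).2
      simp at this

noncomputable def killEquiv (X : Set (V → Bool)) (σ₀ : V → Bool) (h₀ : σ₀ ∈ X) :
    {c : Clause V k // ¬ (X ∩ hset c).Nonempty} ≃ {S : Finset V // S ∈ powersetCard k (frozen X)}
    where
  toFun c := ⟨c.1.1.1, Finset.mem_powersetCard.2 ⟨((kill_iff X σ₀ h₀ c.1).1 c.2).1, c.1.2.1⟩⟩
  invFun S := ⟨⟨(S.1, S.1.filter (fun v => σ₀ v = false)),
      (Finset.mem_powersetCard.1 S.2).2, Finset.filter_subset _ _⟩,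
      (kill_iff X σ₀ h₀ _).2 ⟨(Finset.mem_powersetCard.1 S.2).1, rfl⟩⟩
  left_inv c := by
    apply Subtype.ext
    apply Subtype.ext
    exact Prod.ext rfl ((kill_iff X σ₀ h₀ c.1).1 c.2).2.symm
  right_inv S := rfl

lemma card_kill (X : Set (V → Bool)) (hX : X.Nonempty) :
    Nat.card {c : Clause V k // ¬ (X ∩ hset c).Nonempty} = (frozen X).card.choose k := by
  obtain ⟨σ₀, h₀⟩ := hX
  rw [Nat.card_congr (killEquiv X σ₀ h₀), Nat.card_eq_fintype_card, Fintype.card_coe,
    Finset.card_powersetCard]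

lemma sum_ind_general {Ω A : Type} [Fintype A] (h : A → Set Ω) (X : Set Ω) :
    ∑ a : A, ind (X ∩ h a)
      = (Fintype.card A : ℝ) - (Nat.card {a : A // ¬ (X ∩ h a).Nonempty} : ℝ) := by
  classical
  have h1 : ∀ a : A, ind (X ∩ h a) = 1 - (if ¬ (X ∩ h a).Nonempty then (1 : ℝ) else 0) := by
    intro a
    by_cases hne : (X ∩ h a).Nonempty
    · rw [ind_of_nonempty hne]; simp [hne]
    · rw [ind_of_not_nonempty hne]; simp [hne]
  rw [Finset.sum_congr rfl (fun a _ => h1 a), Finset.sum_sub_distrib]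
  congr 1
  · simp
  · rw [Nat.card_eq_fintype_card, Fintype.card_subtype, Finset.sum_boole]

lemma sum_ind_clause (X : Set (V → Bool)) (hX : X.Nonempty) :
    ∑ c : Clause V k, ind (X ∩ hset c)
      = (Fintype.card (Clause V k) : ℝ) - ((frozen X).card.choose k : ℝ) := by
  rw [sum_ind_general, card_kill X hX]

end Vale.Agent.P170
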