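import Vale.Agent.P170.KB

namespace Vale.Agent.P170

open Finset Real

lemma termA_exponent (c δ θ h n T M j i1 : ℝ) (hc : 0 < c) (hδ0 : 0 < δ) (hθ0 : 0 < θ)
    (hh0 : 0 < h) (hn0 : 0 < n) (hT0 : 0 < T) (hM0 : 0 ≤ M) (hM1 : M ≤ c * (T * n))
    (hj1 : j ≤ 3 * θ * M) (hθ2 : 3 * θ * c ≤ δ / 4) (hh2 : h * (c + δ / 4) ≤ δ / 4)
    (hi2 : (c + δ) * n ≤ i1) :
    (M + j) * (h + h ^ 2) / T - h * i1 ≤ -(h * δ / 2 * n) := by
  have a1 : (M + j) / T ≤ (c + δ / 4) * n := by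
    rw [div_le_iff₀ hT0]
    have h1 : M + j ≤ (1 + 3 * θ) * M := by linarith
    have h2 : (1 + 3 * θ) * M ≤ (1 + 3 * θ) * (c * (T * n)) :=
      mul_le_mul_of_nonneg_left hM1 (by linarith)
    have e : (1 + 3 * θ) * (c * (T * n)) = (c + 3 * θ * c) * n * T := by ring
    have h3 : (c + 3 * θ * c) * n * T ≤ (c + δ / 4) * n * T := by
      apply mul_le_mul_of_nonneg_right _ hT0.le
      apply mul_le_mul_of_nonneg_right _ hn0.le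
      linarith
    linarith
  have a2 : (M + j) * (h + h ^ 2) / T = h * ((1 + h) * ((M + j) / T)) := by
    field_simp
  have a3 : (1 + h) * ((M + j) / T) ≤ (c + δ / 2) * n := by
    calc (1 + h) * ((M + j) / T) ≤ (1 + h) * ((c + δ / 4) * n) :=
          mul_le_mul_of_nonneg_left a1 (by linarith)
      _ = (c + δ / 4 + h * (c + δ / 4)) * n := by ring
      _ ≤ (c + δ / 2) * n := by
          apply mul_le_mul_of_nonneg_right _ hn0.le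
          linarith
  rw [a2]
  have b1 : h * ((1 + h) * ((M + j) / T)) ≤ h * ((c + δ / 2) * n) :=
    mul_le_mul_of_nonneg_left a3 hh0.le
  have b2 : h * ((c + δ) * n) ≤ h * i1 := mul_le_mul_of_nonneg_left hi2 hh0.le
  have e2 : h * ((c + δ / 2) * n) - h * ((c + δ) * n) = -(h * δ / 2 * n) := by ring
  linarith

lemma termB (k : ℕ) (hk : 2 ≤ k) (c θ ε Tm T n M : ℝ) (hc : 0 < c) (hθ0 : 0 < θ) (hε : 0 < ε)
    (hTm0 : 0 < Tm) (hn0 : 0 < n) (hTle : T ≤ Tm) (hM0 : 0 ≤ M) (hM1 : M ≤ c * (T * n))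
    (h3 : 4 * (k : ℝ) ^ 2 / θ ≤ n)
    (h4 : 3 * c * Tm * (16 * (k : ℝ) ^ 4) / (θ ^ 2 * ε) ≤ n) :
    M * (4 * (k : ℝ) ^ 2 / (θ * n)) ^ k ≤ ε / 3 := by
  set b := 4 * (k : ℝ) ^ 2 / (θ * n) with hb
  have hb0 : 0 ≤ b := by rw [hb]; positivity
  have hb1 : b ≤ 1 := by
    rw [hb, div_le_one (by positivity)]
    rw [div_le_iff₀ hθ0] at h3
    linarith
  have hbk : b ^ k ≤ b ^ 2 := pow_le_pow_of_le_one hb0 hb1 hk
  have hb2 : b ^ 2 = 16 * (k : ℝ) ^ 4 / (θ ^ 2 * n ^ 2) := by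
    rw [hb, div_pow]; ring
  have c0 : M ≤ c * (Tm * n) := by
    calc M ≤ c * (T * n) := hM1
      _ ≤ c * (Tm * n) := by
          apply mul_le_mul_of_nonneg_left _ hc.le
          exact mul_le_mul_of_nonneg_right hTle hn0.le
  have c1 : M * b ^ k ≤ c * (Tm * n) * (16 * (k : ℝ) ^ 4 / (θ ^ 2 * n ^ 2)) := by
    rw [← hb2]
    exact mul_le_mul c0 hbk (by positivity) (by positivity)
  have c2 : c * (Tm * n) * (16 * (k : ℝ) ^ 4 / (θ ^ 2 * n ^ 2))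
      = c * Tm * (16 * (k : ℝ) ^ 4) / (θ ^ 2 * n) := by
    field_simp
  have c3 : c * Tm * (16 * (k : ℝ) ^ 4) / (θ ^ 2 * n) ≤ ε / 3 := by
    rw [div_le_iff₀ (by positivity)] at h4
    rw [div_le_iff₀ (by positivity)]
    have e : ε / 3 * (θ ^ 2 * n) = (n * (θ ^ 2 * ε)) / 3 := by ring
    rw [e]
    linarith
  linarith

lemma termC_exponent (c θ n T M j1 : ℝ) (hc : 0 < c) (hθ0 : 0 < θ) (hn0 : 0 < n) (hT1 : 1 ≤ T)
    (hM2 : c * (T * n) < M + 1) (hj2 : 3 * θ * M < j1) (h5 : 2 / c ≤ n) :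
    2 * θ * M - j1 ≤ -(θ * c / 2 * n) := by
  have d2 : 2 ≤ c * n := by
    rw [div_le_iff₀ hc] at h5
    linarith
  have d3 : c * n ≤ c * (T * n) := by
    apply mul_le_mul_of_nonneg_left _ hc.le
    nlinarith
  have d4 : c * n / 2 ≤ M := by linarith
  have d5 : θ * (c * n / 2) ≤ θ * M := mul_le_mul_of_nonneg_left d4 hθ0.le
  have e : θ * (c * n / 2) = θ * c / 2 * n := by ring
  linarith

lemma lemmaB (k : ℕ) (hk : 2 ≤ k) (c c' : ℝ) (hc : 0 < c) (hcc' : c < c') (Tmax : ℕ)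
    (ε : ℝ) (hε : 0 < ε) :
    ∃ n₀ : ℕ, ∀ n T : ℕ, n₀ ≤ n → 1 ≤ T → T ≤ Tmax →
      satProb k n ⌊c' * (n : ℝ)⌋₊ ^ T - ε ≤ satProb k (T * n) ⌊c * ((T * n : ℕ) : ℝ)⌋₊ := by
  set δ := c' - c with hδ
  have hδ0 : 0 < δ := by rw [hδ]; linarith
  set θ := min 1 (δ / (12 * c)) with hθ
  have hθ0 : 0 < θ := by rw [hθ]; apply lt_min one_pos; positivity
  have hθ1 : θ ≤ 1 := min_le_left _ _
  have hθ2 : 3 * θ * c ≤ δ / 4 := by
    have : θ ≤ δ / (12 * c) := min_le_right _ _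
    rw [le_div_iff₀ (by positivity)] at this
    linarith
  set h := min 1 (δ / (4 * (c + δ))) with hh
  have hh0 : 0 < h := by rw [hh]; apply lt_min one_pos; positivity
  have hh1 : h ≤ 1 := min_le_left _ _
  have hh2 : h * (c + δ / 4) ≤ δ / 4 := by
    have : h ≤ δ / (4 * (c + δ)) := min_le_right _ _
    rw [le_div_iff₀ (by positivity)] at this
    nlinarith
  set Tm : ℝ := (Tmax : ℝ) + 1 with hTm
  have hTm0 : 0 < Tm := by rw [hTm]; positivity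
  obtain ⟨n₁, hn₁⟩ := exp_neg_small (h * δ / 2) (ε / (3 * Tm)) (by positivity) (by positivity)
  obtain ⟨n₂, hn₂⟩ := exp_neg_small (θ * c / 2) (ε / 3) (by positivity) (by positivity)
  obtain ⟨n₃, hn₃⟩ := exists_nat_ge (4 * (k : ℝ) ^ 2 / θ)
  obtain ⟨n₄, hn₄⟩ := exists_nat_ge (3 * c * Tm * (16 * (k : ℝ) ^ 4) / (θ ^ 2 * ε))
  obtain ⟨n₅, hn₅⟩ := exists_nat_ge (2 / c)
  refine ⟨n₁ + n₂ + n₃ + n₄ + n₅ + k + 1, fun n T hn hT hTmax => ?_⟩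
  have hn1 : n₁ ≤ n := by omega
  have hn2 : n₂ ≤ n := by omega
  have hn3 : n₃ ≤ n := by omega
  have hn4 : n₄ ≤ n := by omega
  have hn5 : n₅ ≤ n := by omega
  have hnk : k ≤ n := by omega
  have hn11 : 1 ≤ n := by omega
  have hn0 : (0 : ℝ) < n := by exact_mod_cast hn11
  have hT0 : (0 : ℝ) < T := by exact_mod_cast hT
  have hT1 : (1 : ℝ) ≤ T := by exact_mod_cast hT
  have hTle : (T : ℝ) ≤ Tm := by
    rw [hTm]
    have : (T : ℝ) ≤ Tmax := by exact_mod_cast hTmax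
    linarith
  have ecast : ((T * n : ℕ) : ℝ) = (T : ℝ) * n := by push_cast; ring
  have hM1 : ((⌊c * ((T * n : ℕ) : ℝ)⌋₊ : ℕ) : ℝ) ≤ c * (T * n) := by
    rw [← ecast]
    exact Nat.floor_le (by positivity)
  have hM2 : c * (T * n) < ((⌊c * ((T * n : ℕ) : ℝ)⌋₊ : ℕ) : ℝ) + 1 := by
    rw [← ecast]
    exact Nat.lt_floor_add_one _
  generalize ⌊c * ((T * n : ℕ) : ℝ)⌋₊ = M at hM1 hM2 ⊢
  have hM0 : (0 : ℝ) ≤ M := by positivity
  have hj1 : ((⌊3 * θ * (M : ℝ)⌋₊ : ℕ) : ℝ) ≤ 3 * θ * M := Nat.floor_le (by positivity)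
  have hj2 : 3 * θ * M < ((⌊3 * θ * (M : ℝ)⌋₊ : ℕ) : ℝ) + 1 := Nat.lt_floor_add_one _
  have hi2 : c' * n < ((⌊c' * (n : ℝ)⌋₊ : ℕ) : ℝ) + 1 := Nat.lt_floor_add_one _
  have hmain := satProb_super k n T (by omega) hnk hT θ hθ0 hθ1 h hh0.le hh1 M
    ⌊3 * θ * (M : ℝ)⌋₊ ⌊c' * (n : ℝ)⌋₊
  generalize ⌊3 * θ * (M : ℝ)⌋₊ = j at hj1 hj2 hmain
  generalize ⌊c' * (n : ℝ)⌋₊ = i at hi2 hmain ⊢
  have tA : (T : ℝ) * exp (((M : ℝ) + j) * (h + h ^ 2) / T - h * ((i : ℝ) + 1)) ≤ ε / 3 := by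
    have a4 := termA_exponent c δ θ h n T M j ((i : ℝ) + 1) hc hδ0 hθ0 hh0 hn0 hT0 hM0 hM1 hj1
      hθ2 hh2 (by have : c + δ = c' := by rw [hδ]; ring
                  rw [this]; exact hi2.le)
    have a5 : exp (((M : ℝ) + j) * (h + h ^ 2) / T - h * ((i : ℝ) + 1)) ≤ ε / (3 * Tm) :=
      (Real.exp_le_exp.2 a4).trans (hn₁ n hn1)
    calc (T : ℝ) * exp (((M : ℝ) + j) * (h + h ^ 2) / T - h * ((i : ℝ) + 1))
        ≤ Tm * (ε / (3 * Tm)) := mul_le_mul hTle a5 (exp_pos _).le hTm0.le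
      _ = ε / 3 := by field_simp
  have tB : (M : ℝ) * (4 * (k : ℝ) ^ 2 / (θ * (n : ℝ))) ^ k ≤ ε / 3 :=
    termB k hk c θ ε Tm T n M hc hθ0 hε hTm0 hn0 hTle hM0 hM1
      (hn₃.trans (by exact_mod_cast hn3)) (hn₄.trans (by exact_mod_cast hn4))
  have tC : exp (2 * θ * M - ((j : ℝ) + 1)) ≤ ε / 3 := by
    have d5 := termC_exponent c θ n T M ((j : ℝ) + 1) hc hθ0 hn0 hT1 hM2 hj2
      (hn₅.trans (by exact_mod_cast hn5))
    exact (Real.exp_le_exp.2 d5).trans (hn₂ n hn2)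
  linarith

end Vale.Agent.P170
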