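import Vale.Agent.P170.Block

namespace Vale.Agent.P170

open Finset

variable {W : Type} [DecidableEq W] [Fintype W] {T k : ℕ}

/-- product sets of assignments -/
def box (Y : Fin T → Set (W → Bool)) : Set (Fin T × W → Bool) := {σ | ∀ t, rho t σ ∈ Y t}

lemma box_inter_hb (Y : Fin T → Set (W → Bool)) (t : Fin T) (C : Clause W k) :
    box Y ∩ hb (t, C) = box (Function.update Y t (Y t ∩ hset C)) := by
  ext σ
  constructor
  · rintro ⟨h1, h2⟩ s
    by_cases hs : s = t
    · subst hs
      rw [Function.update_self]
      exact ⟨h1 s, h2⟩
    · rw [Function.update_of_ne hs]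
      exact h1 s
  · intro h
    refine ⟨fun s => ?_, ?_⟩
    · by_cases hs : s = t
      · subst hs
        have := h s
        rw [Function.update_self] at this
        exact this.1
      · have := h s
        rw [Function.update_of_ne hs] at this
        exact this
    · have := h t
      rw [Function.update_self] at this
      exact this.2

lemma ind_box (Y : Fin T → Set (W → Bool)) : ind (box Y) = ∏ t, ind (Y t) := by
  by_cases h : ∀ t, (Y t).Nonempty
  · have h1 : (box Y).Nonempty := by
      choose σ hσ using h
      exact ⟨fun p => σ p.1 p.2, fun t => hσ t⟩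
    rw [ind_of_nonempty h1]
    symm
    apply Finset.prod_eq_one
    intro t _
    exact ind_of_nonempty (h t)
  · push Not at h
    obtain ⟨t, ht⟩ := h
    have h1 : ¬ (box Y).Nonempty := by
      rintro ⟨σ, hσ⟩
      have := hσ t
      rw [ht] at this
      exact this
    rw [ind_of_not_nonempty h1]
    symm
    apply Finset.prod_eq_zero (Finset.mem_univ t)
    apply ind_of_not_nonempty
    rw [ht]
    exact Set.not_nonempty_empty

lemma box_univ : box (fun _ : Fin T => (Set.univ : Set (W → Bool))) = Set.univ := by
  ext σ
  simp [box]

theorem product_bound (hW : Nonempty (Clause W k)) (hT : 1 ≤ T) (z : ℝ) (hz : 1 ≤ z) :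
    ∀ (r : ℕ) (i : Fin T → ℕ) (Y : Fin T → Set (W → Bool)),
      ∏ t, iter (hset : Clause W k → Set (W → Bool)) (i t) (Y t)
          - (((T : ℝ) - 1 + z) / T) ^ r * ∑ t, (1 / z) ^ (i t + 1)
        ≤ iter (hb : Fin T × Clause W k → Set (Fin T × W → Bool)) r (box Y) := by
  have hz0 : 0 < z := by linarith
  have hT0 : (0 : ℝ) < T := by exact_mod_cast hT
  set ρ := ((T : ℝ) - 1 + z) / T with hρ
  have hρ1 : 1 ≤ ρ := by
    rw [hρ, le_div_iff₀ hT0]; linarith
  have hρ0 : 0 < ρ := by linarith
  have hA : (0 : ℝ) < (Fintype.card (Clause W k) : ℝ) := by exact_mod_cast Fintype.card_pos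
  intro r
  induction r with
  | zero =>
    intro i Y
    rw [iter_zero, ind_box]
    have h1 : ∏ t, iter (hset : Clause W k → Set (W → Bool)) (i t) (Y t) ≤ ∏ t, ind (Y t) :=
      Finset.prod_le_prod (fun t _ => iter_nonneg _ _ _) (fun t _ => iter_le_ind _ _ _)
    have h2 : 0 ≤ ρ ^ 0 * ∑ t, (1 / z) ^ (i t + 1) := by
      apply mul_nonneg (by positivity)
      apply Finset.sum_nonneg
      intro t _
      positivity
    linarith
  | succ r ih =>
    intro i Y
    set P : Fin T → ℝ := fun s => iter (hset : Clause W k → Set (W → Bool)) (i s) (Y s) with hP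
    set u : Fin T → ℝ := fun s => (1 / z) ^ (i s + 1) with hu
    have hP0 : ∀ s, 0 ≤ P s := fun s => iter_nonneg _ _ _
    have hP1 : ∀ s, P s ≤ 1 := fun s => iter_le_one _ _ _
    have hu0 : ∀ s, 0 ≤ u s := fun s => by simp only [hu]; positivity
    set G := ∏ t, P t with hG
    set Sz := ∑ t, u t with hSz
    have hG1 : G ≤ 1 := Finset.prod_le_one (fun t _ => hP0 t) (fun t _ => hP1 t)
    have key : ∀ t : Fin T, (Fintype.card (Clause W k) : ℝ) * (G - ρ ^ r * (Sz - u t + z * u t))
        ≤ ∑ C : Clause W k, iter (hb : Fin T × Clause W k → Set (Fin T × W → Bool)) r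
            (box Y ∩ hb (t, C)) := by
      intro t
      have hGt : G = P t * ∏ x ∈ univ \ {t}, P x := by
        have := Finset.prod_update_of_mem (Finset.mem_univ t) P (P t)
        rw [Function.update_eq_self] at this
        exact this
      have hSt : Sz = u t + ∑ x ∈ univ \ {t}, u x := by
        have := Finset.sum_update_of_mem (Finset.mem_univ t) u (u t)
        rw [Function.update_eq_self] at this
        exact this
      have hQ0 : 0 ≤ ∑ x ∈ univ \ {t}, u x := Finset.sum_nonneg (fun x _ => hu0 x)
      have hzu : z * u t = (1 / z) ^ (i t) := by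
        simp only [hu]
        rw [pow_succ]
        field_simp
      rcases Nat.eq_zero_or_pos (i t) with hit | hit
      · have h1 : z * u t = 1 := by rw [hzu, hit, pow_zero]
        have h2 : 1 ≤ ρ ^ r * (Sz - u t + z * u t) := by
          have h3 : 1 ≤ Sz - u t + z * u t := by rw [h1, hSt]; linarith
          have h4 : 1 ≤ ρ ^ r := one_le_pow₀ hρ1
          nlinarith
        have h5 : (Fintype.card (Clause W k) : ℝ) * (G - ρ ^ r * (Sz - u t + z * u t)) ≤ 0 :=
          mul_nonpos_of_nonneg_of_nonpos hA.le (by linarith)
        have h6 : 0 ≤ ∑ C : Clause W k, iter (hb : Fin T × Clause W k → Set (Fin T × W → Bool)) r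
            (box Y ∩ hb (t, C)) := Finset.sum_nonneg (fun C _ => iter_nonneg _ _ _)
        linarith
      · obtain ⟨i', hi'⟩ : ∃ i', i t = i' + 1 := ⟨i t - 1, by omega⟩
        have hterm : ∀ C : Clause W k,
            iter (hset : Clause W k → Set (W → Bool)) i' (Y t ∩ hset C) * ∏ x ∈ univ \ {t}, P x
              - ρ ^ r * (Sz - u t + z * u t)
            ≤ iter (hb : Fin T × Clause W k → Set (Fin T × W → Bool)) r (box Y ∩ hb (t, C)) := by
          intro C
          rw [box_inter_hb]
          have := ih (Function.update i t i') (Function.update Y t (Y t ∩ hset C))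
          have e1 : (fun s => iter (hset : Clause W k → Set (W → Bool)) (Function.update i t i' s)
              (Function.update Y t (Y t ∩ hset C) s))
              = Function.update P t (iter (hset : Clause W k → Set (W → Bool)) i' (Y t ∩ hset C)) := by
            funext s
            by_cases hs : s = t
            · subst hs
              simp only [Function.update_self]
            · simp only [Function.update_of_ne hs, hP]
          have e2 : (fun s => (1 / z) ^ (Function.update i t i' s + 1))
              = Function.update u t ((1 / z) ^ (i' + 1)) := by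
            funext s
            by_cases hs : s = t
            · subst hs
              simp only [Function.update_self]
            · simp only [Function.update_of_ne hs, hu]
          have e1' : ∏ s, iter (hset : Clause W k → Set (W → Bool)) (Function.update i t i' s)
              (Function.update Y t (Y t ∩ hset C) s)
              = iter (hset : Clause W k → Set (W → Bool)) i' (Y t ∩ hset C)
                * ∏ x ∈ univ \ {t}, P x := by
            rw [← Finset.prod_update_of_mem (Finset.mem_univ t) P, ← e1]
          have e2' : ∑ s, (1 / z) ^ (Function.update i t i' s + 1)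
              = (1 / z) ^ (i' + 1) + ∑ x ∈ univ \ {t}, u x := by
            rw [← Finset.sum_update_of_mem (Finset.mem_univ t) u, ← e2]
          rw [e1', e2'] at this
          have e3 : Sz - u t + z * u t = (1 / z) ^ (i' + 1) + ∑ x ∈ univ \ {t}, u x := by
            rw [hzu, hi', hSt]; ring
          rw [e3]
          exact this
        have hsum : ∑ C : Clause W k, iter (hset : Clause W k → Set (W → Bool)) i' (Y t ∩ hset C)
            = (Fintype.card (Clause W k) : ℝ) * P t := by
          simp only [hP]
          rw [hi', iter_succ]
          unfold avg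
          field_simp
        calc (Fintype.card (Clause W k) : ℝ) * (G - ρ ^ r * (Sz - u t + z * u t))
            = ∑ C : Clause W k,
              (iter (hset : Clause W k → Set (W → Bool)) i' (Y t ∩ hset C) * ∏ x ∈ univ \ {t}, P x
                - ρ ^ r * (Sz - u t + z * u t)) := by
              rw [Finset.sum_sub_distrib, ← Finset.sum_mul, hsum, hGt]
              simp only [Finset.sum_const, Finset.card_univ, nsmul_eq_mul]
              ring
          _ ≤ _ := Finset.sum_le_sum (fun C _ => hterm C)
    rw [iter_succ]
    unfold avg
    rw [Fintype.sum_prod_type, Fintype.card_prod, Fintype.card_fin, le_div_iff₀ (by positivity)]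
    calc (G - ρ ^ (r + 1) * Sz) * ((T * Fintype.card (Clause W k) : ℕ) : ℝ)
        = ∑ t : Fin T, (Fintype.card (Clause W k) : ℝ) * (G - ρ ^ r * (Sz - u t + z * u t)) := by
          rw [← Finset.mul_sum, Finset.sum_sub_distrib, ← Finset.mul_sum, Finset.sum_add_distrib,
            Finset.sum_sub_distrib, ← Finset.mul_sum]
          simp only [Finset.sum_const, Finset.card_univ, Fintype.card_fin, nsmul_eq_mul]
          rw [← hSz, pow_succ, hρ]
          push_cast
          field_simp
      _ ≤ _ := Finset.sum_le_sum (fun t _ => key t)

end Vale.Agent.P170
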