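import Vale.Agent.P170.Thm1

namespace Vale.Agent.P170

lemma exists_mult (a b : ℕ) (hb : 1 ≤ b) (ha : 1 ≤ a) :
    ∃ T : ℕ, 1 ≤ T ∧ a ≤ T * b ∧ T * b < a + b := by
  refine ⟨(a - 1) / b + 1, Nat.le_add_left 1 _, ?_, ?_⟩
  · have := Nat.lt_div_mul_add (a := a - 1) hb
    rw [Nat.add_mul, one_mul]
    omega
  · have := Nat.div_mul_le_self (a - 1) b
    rw [Nat.add_mul, one_mul]
    omega

lemma select_low (N : ℕ → ℕ) (hN : StrictMono N) (Λ : ℝ)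
    (hΛ : ∀ j, (N (j + 1) : ℝ) ≤ Λ * (N j : ℝ)) (η : ℝ) (hη : 0 < η) (J : ℕ) :
    ∃ n₁ : ℕ, ∀ n : ℕ, n₁ ≤ n → ∃ j T : ℕ, J ≤ j ∧ 1 ≤ T ∧ (T : ℝ) ≤ Λ / η + 1 ∧
      n ≤ T * N j ∧ ((T * N j : ℕ) : ℝ) ≤ (1 + η) * n := by
  obtain ⟨n₁, hn₁⟩ := exists_nat_ge ((N J : ℝ) / η)
  refine ⟨n₁ + 1, fun n hn => ?_⟩
  have hn1 : 1 ≤ n := by omega
  have hn0 : (0 : ℝ) < n := by exact_mod_cast hn1
  have h1 : (N J : ℝ) ≤ η * n := by
    have : (N J : ℝ) / η ≤ n := hn₁.trans (by exact_mod_cast (by omega : n₁ ≤ n))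
    rw [div_le_iff₀ hη] at this
    linarith
  have h2 : N J < ⌊η * (n : ℝ)⌋₊ + 1 := Nat.lt_succ_of_le (Nat.le_floor h1)
  obtain ⟨j, hj, hj1, hj2⟩ := bracket N hN J _ h2
  have h3 : (N j : ℝ) ≤ η * n := by
    have : N j ≤ ⌊η * (n : ℝ)⌋₊ := Nat.lt_succ_iff.1 hj1
    exact (Nat.cast_le.2 this).trans (Nat.floor_le (by positivity))
  have h4 : η * n < (N (j + 1) : ℝ) := by
    have a1 := Nat.lt_floor_add_one (η * (n : ℝ))
    have a2 : ((⌊η * (n : ℝ)⌋₊ + 1 : ℕ) : ℝ) ≤ (N (j + 1) : ℝ) := Nat.cast_le.2 hj2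
    push_cast at a2
    linarith
  have h5 : η * n < Λ * (N j : ℝ) := lt_of_lt_of_le h4 (hΛ j)
  have hNj : 1 ≤ N j := by
    by_contra hcon
    have : N j = 0 := by omega
    rw [this] at h5
    have : 0 < η * n := by positivity
    simp at h5
    linarith
  have hNj0 : (0 : ℝ) < (N j : ℝ) := by exact_mod_cast hNj
  obtain ⟨T, hT1, hT2, hT3⟩ := exists_mult n (N j) hNj hn1
  have hT3' : (T : ℝ) * (N j : ℝ) < n + N j := by exact_mod_cast hT3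
  refine ⟨j, T, hj, hT1, ?_, hT2, ?_⟩
  · have a1 : (T : ℝ) < n / (N j : ℝ) + 1 := by
      rw [div_add_one hNj0.ne', lt_div_iff₀ hNj0]
      exact hT3'
    have a2 : (n : ℝ) / (N j : ℝ) ≤ Λ / η := by
      rw [div_le_div_iff₀ hNj0 hη]
      linarith
    linarith
  · push_cast
    linarith

lemma select_high (N : ℕ → ℕ) (hN : StrictMono N) (Λ : ℝ)
    (hΛ : ∀ j, (N (j + 1) : ℝ) ≤ Λ * (N j : ℝ)) (η : ℝ) (hη : 0 < η) (J : ℕ) :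
    ∃ n₁ : ℕ, ∀ n : ℕ, n₁ ≤ n → ∃ j T : ℕ, J ≤ j ∧ 1 ≤ T ∧ (T : ℝ) ≤ Λ / η + 1 ∧
      N j ≤ T * n ∧ ((T * n : ℕ) : ℝ) ≤ (1 + η) * (N j : ℝ) := by
  obtain ⟨n₁, hn₁⟩ := exists_nat_ge (η * (N J : ℝ))
  refine ⟨n₁ + 1, fun n hn => ?_⟩
  have hn1 : 1 ≤ n := by omega
  have hn0 : (0 : ℝ) < n := by exact_mod_cast hn1
  have h1 : (N J : ℝ) < n / η := by
    rw [lt_div_iff₀ hη]
    have : (n₁ : ℝ) < n := by exact_mod_cast (by omega : n₁ < n)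
    linarith
  have h2 : N J < ⌈(n : ℝ) / η⌉₊ := Nat.lt_ceil.2 h1
  obtain ⟨j, hj, hj1, hj2⟩ := bracket N hN J _ h2
  have h3 : (N j : ℝ) < n / η := Nat.lt_ceil.1 hj1
  have h4 : (n : ℝ) / η ≤ (N (j + 1) : ℝ) := (Nat.le_ceil _).trans (Nat.cast_le.2 hj2)
  have h5 : (n : ℝ) ≤ η * (N (j + 1) : ℝ) := by
    rw [div_le_iff₀ hη] at h4
    linarith
  have hNj : 1 ≤ N (j + 1) := by
    have := hN.le_apply (x := j + 1)
    omega
  have hΛ0 : 0 ≤ Λ := by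
    by_contra hcon
    push Not at hcon
    have a1 := hΛ j
    have a2 : (0 : ℝ) ≤ (N j : ℝ) := by positivity
    have a3 : (0 : ℝ) < (N (j + 1) : ℝ) := by exact_mod_cast hNj
    nlinarith
  obtain ⟨T, hT1, hT2, hT3⟩ := exists_mult (N (j + 1)) n hn1 hNj
  have hT3' : (T : ℝ) * (n : ℝ) < N (j + 1) + n := by exact_mod_cast hT3
  refine ⟨j + 1, T, by omega, hT1, ?_, hT2, ?_⟩
  · have a1 : (T : ℝ) < (N (j + 1) : ℝ) / n + 1 := by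
      rw [div_add_one hn0.ne', lt_div_iff₀ hn0]
      exact hT3'
    have a2 : (N (j + 1) : ℝ) / n ≤ Λ / η := by
      rw [div_le_div_iff₀ hn0 hη]
      have b1 := hΛ j
      have b2 : (N j : ℝ) * η ≤ n := by
        rw [lt_div_iff₀ hη] at h3
        exact h3.le
      nlinarith
    linarith
  · push_cast
    linarith

end Vale.Agent.P170
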