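import Vale.Agent.P170.LemmaA

namespace Vale.Agent.P170

open Filter Topology

lemma bracket (N : ℕ → ℕ) (hN : StrictMono N) (J n : ℕ) (h : N J < n) :
    ∃ j, J ≤ j ∧ N j < n ∧ n ≤ N (j + 1) := by
  classical
  have hex : ∃ j, n ≤ N j := ⟨n, hN.le_apply⟩
  set j₀ := Nat.find hex with hj₀
  have h1 : n ≤ N j₀ := Nat.find_spec hex
  have h2 : J < j₀ := by
    rw [← hN.lt_iff_lt]
    exact lt_of_lt_of_le h h1
  obtain ⟨j, hj⟩ : ∃ j, j₀ = j + 1 := ⟨j₀ - 1, by omega⟩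
  refine ⟨j, by omega, ?_, by rw [← hj]; exact h1⟩
  have : ¬ n ≤ N j := Nat.find_min hex (by omega)
  omega

lemma satProb_nonneg (k n m : ℕ) : 0 ≤ satProb k n m := by
  unfold satProb
  positivity

lemma satProb_le_one (k n m : ℕ) : satProb k n m ≤ 1 := by
  unfold satProb
  apply div_le_one_of_le₀ _ (by positivity)
  have : Nat.card {F : Fin m → Clause (Fin n) k // Satisfiable F}
      ≤ Nat.card (Fin m → Clause (Fin n) k) :=
    Nat.card_le_card_of_injective Subtype.val Subtype.val_injective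
  exact_mod_cast this

theorem subseq_ratio_one (k : ℕ) (α : ℝ) (hα : 0 < α) (N : ℕ → ℕ) (hN : StrictMono N)
    (hratio : Tendsto (fun j => (N (j + 1) : ℝ) / (N j : ℝ)) atTop (𝓝 1))
    (hlow : ∀ c : ℝ, 0 ≤ c → c < α →
      Tendsto (fun j => satProb k (N j) ⌊c * (N j : ℝ)⌋₊) atTop (𝓝 1))
    (hhigh : ∀ c : ℝ, α < c →
      Tendsto (fun j => satProb k (N j) ⌊c * (N j : ℝ)⌋₊) atTop (𝓝 0)) :
    HasLimitingThreshold k α := by
  have hrat : ∀ η : ℝ, 0 < η → ∃ j₂ : ℕ, ∀ j, j₂ ≤ j → (N (j + 1) : ℝ) ≤ (1 + η) * (N j : ℝ) := by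
    intro η hη
    have h1 : ∀ᶠ j in atTop, (N (j + 1) : ℝ) / (N j : ℝ) < 1 + η :=
      hratio.eventually (gt_mem_nhds (by linarith))
    obtain ⟨j₂, hj₂⟩ := eventually_atTop.1 h1
    refine ⟨max j₂ 1, fun j hj => ?_⟩
    have h2 := hj₂ j ((le_max_left _ _).trans hj)
    have h3 : 1 ≤ N j := ((le_max_right _ _).trans hj).trans hN.le_apply
    have h4 : (0 : ℝ) < (N j : ℝ) := by exact_mod_cast h3
    rw [div_lt_iff₀ h4] at h2
    exact h2.le
  refine ⟨hα, fun c hc hcα => ?_, fun c hcα => ?_⟩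
  · set c' := (c + α) / 2 with hc'
    obtain ⟨η, hη, hA⟩ := lemmaA k c c' hc (by rw [hc']; linarith)
    rw [Metric.tendsto_atTop]
    intro ε hε
    obtain ⟨n₀, hn₀⟩ := hA (ε / 3) (by positivity)
    obtain ⟨j₂, hj₂⟩ := hrat η hη
    have h1 := (Metric.tendsto_atTop.1 (hlow c' (by rw [hc']; linarith) (by rw [hc']; linarith)))
      (ε / 3) (by positivity)
    obtain ⟨j₁, hj₁⟩ := h1
    refine ⟨max n₀ (N (max j₁ j₂) + 1), fun n hn => ?_⟩
    have hn1 : n₀ ≤ n := (le_max_left _ _).trans hn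
    have hn2 : N (max j₁ j₂) < n := lt_of_lt_of_le (Nat.lt_succ_self _) ((le_max_right _ _).trans hn)
    obtain ⟨j, hj, hjn, hnj⟩ := bracket N hN _ n hn2
    have h2 := hj₂ j ((le_max_right _ _).trans hj)
    have h3 : (N (j + 1) : ℝ) ≤ (1 + η) * n := by
      have : (N j : ℝ) ≤ n := by exact_mod_cast hjn.le
      nlinarith
    have h4 := hn₀ n (N (j + 1)) hn1 hnj h3
    have h5 := hj₁ (j + 1) (((le_max_left _ _).trans hj).trans (Nat.le_succ _))
    rw [Real.dist_eq, abs_lt] at h5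
    rw [Real.dist_eq, abs_lt]
    have h6 := satProb_le_one k n ⌊c * (n : ℝ)⌋₊
    constructor <;> linarith [h5.1, h5.2]
  · set c' := (c + α) / 2 with hc'
    obtain ⟨η, hη, hA⟩ := lemmaA k c' c (by rw [hc']; linarith) (by rw [hc']; linarith)
    rw [Metric.tendsto_atTop]
    intro ε hε
    obtain ⟨n₀, hn₀⟩ := hA (ε / 3) (by positivity)
    obtain ⟨j₂, hj₂⟩ := hrat η hη
    have h1 := (Metric.tendsto_atTop.1 (hhigh c' (by rw [hc']; linarith))) (ε / 3) (by positivity)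
    obtain ⟨j₁, hj₁⟩ := h1
    refine ⟨N (max n₀ (max j₁ j₂)) + 1, fun n hn => ?_⟩
    have hn2 : N (max n₀ (max j₁ j₂)) < n := lt_of_lt_of_le (Nat.lt_succ_self _) hn
    obtain ⟨j, hj, hjn, hnj⟩ := bracket N hN _ n hn2
    have hj0 : n₀ ≤ N j := ((le_max_left _ _).trans hj).trans hN.le_apply
    have h2 := hj₂ j (((le_max_right _ _).trans (le_max_right _ _)).trans hj)
    have h3 : (n : ℝ) ≤ (1 + η) * (N j : ℝ) := by
      have : (n : ℝ) ≤ N (j + 1) := by exact_mod_cast hnj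
      linarith
    have h4 := hn₀ (N j) n hj0 hjn.le h3
    have h5 := hj₁ j (((le_max_left _ _).trans (le_max_right _ _)).trans hj)
    rw [Real.dist_eq, abs_lt] at h5
    rw [Real.dist_eq, abs_lt]
    have h6 := satProb_nonneg k n ⌊c * (n : ℝ)⌋₊
    constructor <;> linarith [h5.1, h5.2]

end Vale.Agent.P170
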