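import Vale.Agent.P170.Select
import Vale.Agent.P170.LemmaB

namespace Vale.Agent.P170

open Filter Topology

theorem lower_half (k : ℕ) (hk : 2 ≤ k) (α Λ : ℝ) (N : ℕ → ℕ) (hN : StrictMono N)
    (hΛ : ∀ j, (N (j + 1) : ℝ) ≤ Λ * (N j : ℝ))
    (hlow : ∀ c : ℝ, 0 ≤ c → c < α →
      Tendsto (fun j => satProb k (N j) ⌊c * (N j : ℝ)⌋₊) atTop (𝓝 1)) :
    ∀ c : ℝ, 0 ≤ c → c < α → Tendsto (fun n : ℕ => satProb k n ⌊c * (n : ℝ)⌋₊) atTop (𝓝 1) := by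
  intro c hc hcα
  set c₁ := c + (α - c) / 3 with hc₁
  set c₂ := c + 2 * (α - c) / 3 with hc₂
  have h01 : c < c₁ := by rw [hc₁]; linarith
  have h12 : c₁ < c₂ := by rw [hc₁, hc₂]; linarith
  have h2α : c₂ < α := by rw [hc₂]; linarith
  obtain ⟨η, hη, hA⟩ := lemmaA k c c₁ hc h01
  set Tmax := ⌈Λ / η + 1⌉₊ with hTmax
  rw [Metric.tendsto_atTop]
  intro ε hε
  obtain ⟨nA, hnA⟩ := hA (ε / 4) (by positivity)
  obtain ⟨nB, hnB⟩ := lemmaB k hk c₁ c₂ (by linarith) h12 Tmax (ε / 4) (by positivity)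
  obtain ⟨j₁, hj₁⟩ := (Metric.tendsto_atTop.1 (hlow c₂ (by linarith) h2α))
    (ε / 4 / ((Tmax : ℝ) + 1)) (by positivity)
  obtain ⟨n₁, hn₁⟩ := select_low N hN Λ hΛ η hη (max j₁ nB)
  refine ⟨max nA n₁, fun n hn => ?_⟩
  obtain ⟨j, T, hj, hT1, hT2, hT3, hT4⟩ := hn₁ n ((le_max_right _ _).trans hn)
  have hTle : T ≤ Tmax := by
    have : (T : ℝ) ≤ (Tmax : ℝ) := hT2.trans (Nat.le_ceil _)
    exact_mod_cast this
  have hjB : nB ≤ N j := ((le_max_right _ _).trans hj).trans hN.le_apply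
  have e1 := hnA n (T * N j) ((le_max_left _ _).trans hn) hT3 hT4
  have e2 := hnB (N j) T hjB hT1 hTle
  have e3 := hj₁ j ((le_max_left _ _).trans hj)
  rw [Real.dist_eq, abs_lt] at e3
  set a := satProb k (N j) ⌊c₂ * (N j : ℝ)⌋₊ with ha
  have ha1 : a ≤ 1 := satProb_le_one _ _ _
  have ha0 : 0 ≤ a := satProb_nonneg _ _ _
  have e4 : 1 - ε / 4 ≤ a ^ T := by
    have b1 := one_add_mul_le_pow (a := a - 1) (by linarith) T
    have b2 : 1 + (a - 1) = a := by ring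
    rw [b2] at b1
    have b3 : (T : ℝ) * (ε / 4 / ((Tmax : ℝ) + 1)) ≤ ε / 4 := by
      have : (T : ℝ) ≤ (Tmax : ℝ) + 1 := by
        have : (T : ℝ) ≤ (Tmax : ℝ) := by exact_mod_cast hTle
        linarith
      calc (T : ℝ) * (ε / 4 / ((Tmax : ℝ) + 1)) ≤ ((Tmax : ℝ) + 1) * (ε / 4 / ((Tmax : ℝ) + 1)) :=
            mul_le_mul_of_nonneg_right this (by positivity)
        _ = ε / 4 := by field_simp
    have b4 : (T : ℝ) * (-(ε / 4 / ((Tmax : ℝ) + 1))) ≤ (T : ℝ) * (a - 1) :=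
      mul_le_mul_of_nonneg_left e3.1.le (by positivity)
    linarith
  have e5 := satProb_le_one k n ⌊c * (n : ℝ)⌋₊
  rw [Real.dist_eq, abs_lt]
  constructor <;> linarith

theorem upper_half (k : ℕ) (hk : 2 ≤ k) (β Λ : ℝ) (hβ : 0 ≤ β) (N : ℕ → ℕ) (hN : StrictMono N)
    (hΛ : ∀ j, (N (j + 1) : ℝ) ≤ Λ * (N j : ℝ))
    (hhigh : ∀ c : ℝ, β < c →
      Tendsto (fun j => satProb k (N j) ⌊c * (N j : ℝ)⌋₊) atTop (𝓝 0)) :
    ∀ c : ℝ, β < c → Tendsto (fun n : ℕ => satProb k n ⌊c * (n : ℝ)⌋₊) atTop (𝓝 0) := by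
  intro c hcβ
  set c₁ := c - (c - β) / 3 with hc₁
  set c₂ := c - 2 * (c - β) / 3 with hc₂
  have h01 : c₁ < c := by rw [hc₁]; linarith
  have h12 : c₂ < c₁ := by rw [hc₁, hc₂]; linarith
  have h2β : β < c₂ := by rw [hc₂]; linarith
  obtain ⟨η, hη, hA⟩ := lemmaA k c₂ c₁ (by linarith) h12
  set Tmax := ⌈Λ / η + 1⌉₊ with hTmax
  rw [Metric.tendsto_atTop]
  intro ε hε
  set ε₀ := min ε 1 with hε₀
  have hε₀0 : 0 < ε₀ := lt_min hε one_pos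
  have hε₀1 : ε₀ ≤ 1 := min_le_right _ _
  set ε' := ε₀ ^ Tmax / 4 with hε'
  have hε'0 : 0 < ε' := by rw [hε']; positivity
  obtain ⟨nA, hnA⟩ := hA ε' hε'0
  obtain ⟨nB, hnB⟩ := lemmaB k hk c₁ c (by linarith) h01 Tmax ε' hε'0
  obtain ⟨j₁, hj₁⟩ := (Metric.tendsto_atTop.1 (hhigh c₂ h2β)) ε' hε'0
  obtain ⟨n₁, hn₁⟩ := select_high N hN Λ hΛ η hη (max j₁ nA)
  refine ⟨max nB n₁, fun n hn => ?_⟩
  obtain ⟨j, T, hj, hT1, hT2, hT3, hT4⟩ := hn₁ n ((le_max_right _ _).trans hn)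
  have hTle : T ≤ Tmax := by
    have : (T : ℝ) ≤ (Tmax : ℝ) := hT2.trans (Nat.le_ceil _)
    exact_mod_cast this
  have hjA : nA ≤ N j := ((le_max_right _ _).trans hj).trans hN.le_apply
  have e1 := hnA (N j) (T * n) hjA hT3 hT4
  have e2 := hnB n T ((le_max_left _ _).trans hn) hT1 hTle
  have e3 := hj₁ j ((le_max_left _ _).trans hj)
  rw [Real.dist_eq, abs_lt] at e3
  set p := satProb k n ⌊c * (n : ℝ)⌋₊ with hp
  have hp0 : 0 ≤ p := satProb_nonneg _ _ _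
  have e4 : p ^ T ≤ 3 * ε' := by linarith [e3.2]
  have e5 : p < ε₀ := by
    by_contra hcon
    push Not at hcon
    have b1 : ε₀ ^ T ≤ p ^ T := pow_le_pow_left₀ hε₀0.le hcon T
    have b2 : ε₀ ^ Tmax ≤ ε₀ ^ T := pow_le_pow_of_le_one hε₀0.le hε₀1 hTle
    have b3 : ε₀ ^ Tmax = 4 * ε' := by rw [hε']; ring
    linarith
  have e6 : ε₀ ≤ ε := min_le_left _ _
  rw [Real.dist_eq, abs_lt]
  constructor <;> linarith

theorem subseq_bounded_ratio (k : ℕ) (hk : 2 ≤ k) (α Λ : ℝ) (hα : 0 < α) (N : ℕ → ℕ)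
    (hN : StrictMono N) (hΛ : ∀ j, (N (j + 1) : ℝ) ≤ Λ * (N j : ℝ))
    (hlow : ∀ c : ℝ, 0 ≤ c → c < α →
      Tendsto (fun j => satProb k (N j) ⌊c * (N j : ℝ)⌋₊) atTop (𝓝 1))
    (hhigh : ∀ c : ℝ, α < c →
      Tendsto (fun j => satProb k (N j) ⌊c * (N j : ℝ)⌋₊) atTop (𝓝 0)) :
    HasLimitingThreshold k α :=
  ⟨hα, lower_half k hk α Λ N hN hΛ hlow, upper_half k hk α Λ hα.le N hN hΛ hhigh⟩

end Vale.Agent.P170
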